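import Crest.Agent.R106.Rep.Defs
import Crest.Agent.R106.U.Vla

/-! Row 106, frame block: elementary facts. -/

set_option autoImplicit false

noncomputable section

namespace Crest.Agent.R106.Rep

open MeasureTheory Metric Set Filter Topology
open scoped ContDiff InnerProductSpace ENNReal
open Crest.AnalysisR.VecCalc3 Crest.AnalysisR.PDE.RVM Crest.Agent.R106.Wave

theorem basicA_sq (v : R3) : ‖relVel v‖ ^ 2 = ‖v‖ ^ 2 / (1 + ‖v‖ ^ 2) := by
  rw [relVel, norm_smul, mul_pow, norm_inv, inv_pow, Real.norm_eq_abs, sq_abs, Real.sq_sqrt (by positivity),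
    div_eq_inv_mul]

theorem norm_relVel_lt (v : R3) : ‖relVel v‖ < 1 := by
  refine lt_of_pow_lt_pow_left₀ 2 zero_le_one ?_
  rw [basicA_sq, one_pow, div_lt_one (by positivity)]
  linarith

theorem norm_relVel_sq (v : R3) : 1 - ‖relVel v‖ ^ 2 = (1 + ‖v‖ ^ 2)⁻¹ := by
  rw [basicA_sq]
  field_simp
  ring

/-- uniform speed bound on a ball (`q = R / √(1 + R²)`) -/
theorem exists_speed (R : ℝ) : ∃ q : ℝ, 0 ≤ q ∧ q < 1 ∧ ∀ v : R3, ‖v‖ ≤ R → ‖relVel v‖ ≤ q := by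
  have h0 : 0 < 1 + R ^ 2 := by positivity
  refine ⟨Real.sqrt (R ^ 2 / (1 + R ^ 2)), Real.sqrt_nonneg _, ?_, fun v hv => ?_⟩
  · rw [Real.sqrt_lt' one_pos, one_pow, div_lt_one h0]
    linarith
  · refine Real.le_sqrt_of_sq_le ?_
    have h1 : ‖v‖ ^ 2 ≤ R ^ 2 := pow_le_pow_left₀ (norm_nonneg _) hv 2
    rw [basicA_sq, div_le_div_iff₀ (by positivity) h0]
    nlinarith

theorem smooth_relVel : ContDiff ℝ ∞ relVel := by
  have h : ContDiff ℝ ∞ fun v : R3 => 1 + ‖v‖ ^ 2 := contDiff_const.add (contDiff_norm_sq ℝ)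
  have h1 : ContDiff ℝ ∞ fun v : R3 => Real.sqrt (1 + ‖v‖ ^ 2) := h.sqrt fun v => by positivity
  exact (h1.inv fun v => (Real.sqrt_pos.2 (by positivity)).ne').smul contDiff_id

/-- the derivative of `relVel` -/
theorem D_relVel (v F : R3) : D F relVel v = A.acc v F := by
  have hp : 0 < 1 + ‖v‖ ^ 2 := by positivity
  have hs : 0 < Real.sqrt (1 + ‖v‖ ^ 2) := Real.sqrt_pos.2 hp
  have h1 : HasFDerivAt (fun w : R3 => 1 + ‖w‖ ^ 2) (2 • innerSL ℝ v) v :=
    (hasStrictFDerivAt_norm_sq v).hasFDerivAt.const_add 1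
  have h2 := ((hasDerivAt_inv hs.ne').comp_hasFDerivAt v (h1.sqrt hp.ne')).smul (hasFDerivAt_id v)
  have h3 : HasFDerivAt relVel _ v := h2
  rw [D_apply, h3.fderiv]
  simp only [A.acc, A.en, relVel, real_inner_smul_left, smul_add, smul_smul, add_apply,
    smul_apply, ContinuousLinearMap.smulRight_apply, ContinuousLinearMap.id_apply, innerSL_apply_apply,
    Function.comp_apply, id, smul_eq_mul, nsmul_eq_mul, sub_eq_add_neg, ← neg_smul]
  congr 2
  push_cast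
  field_simp

theorem norm_dir_le (z : R3) : ‖A.dir z‖ ≤ 1 := by
  rw [A.dir, norm_smul, norm_inv, norm_norm]
  exact inv_mul_le_one_of_le₀ le_rfl (norm_nonneg _)

theorem bb_pos (x : R3) (z : P6) : 0 < bb x z := by
  have h := (real_inner_le_norm (A.dir (x - z.1)) (relVel z.2)).trans
    (mul_le_of_le_one_left (norm_nonneg _) (norm_dir_le _))
  have := norm_relVel_lt z.2
  simp only [bb, A.ang]
  linarith

theorem bb_ge (x : R3) (z : P6) : 1 - ‖relVel z.2‖ ≤ bb x z := by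
  have h := (real_inner_le_norm (A.dir (x - z.1)) (relVel z.2)).trans
    (mul_le_of_le_one_left (norm_nonneg _) (norm_dir_le _))
  simp only [bb, A.ang]
  linarith

theorem measurable_bb (x : R3) : Measurable (bb x) := by
  have h1 : Measurable fun z : P6 => x - z.1 := measurable_const.sub measurable_fst
  have h2 : Measurable fun z : P6 => relVel z.2 := smooth_relVel.continuous.measurable.comp measurable_snd
  exact measurable_const.sub ((h1.norm.inv.smul h1).inner h2)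

theorem den_pos {w : R3} (hw : ‖w‖ ≤ 1) (v : R3) : 0 < 1 + ⟪relVel v, w⟫_ℝ := by
  have h := (abs_real_inner_le_norm (relVel v) w).trans (mul_le_of_le_one_right (norm_nonneg _) hw)
  have := norm_relVel_lt v
  linarith [(abs_le.1 h).1]

theorem smooth_alE (i : Fin 3) : ContDiff ℝ ∞ (alE i) := by
  exact contDiff_const

theorem smooth_alB (i : Fin 3) : ContDiff ℝ ∞ (alB i) := by
  have h : ∀ j : Fin 3, ContDiff ℝ ∞ fun v : R3 => relVel v j := fun j =>
    (EuclideanSpace.proj (𝕜 := ℝ) j).contDiff.comp smooth_relVel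
  unfold alB
  rw [contDiff_euclidean]
  intro j
  fin_cases j
  · exact ((h 1).mul (contDiff_const (c := e3 i 2))).sub ((h 2).mul (contDiff_const (c := e3 i 1)))
  · exact ((h 2).mul (contDiff_const (c := e3 i 0))).sub ((h 0).mul (contDiff_const (c := e3 i 2)))
  · exact ((h 0).mul (contDiff_const (c := e3 i 1))).sub ((h 1).mul (contDiff_const (c := e3 i 0)))

theorem norm_alE (i : Fin 3) (v : R3) : ‖alE i v‖ ≤ 1 := by
  simp [alE]

theorem norm_alB (i : Fin 3) (v : R3) : ‖alB i v‖ ≤ 1 := by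
  have h := U.norm_cross3_le (relVel v) (e3 i)
  have h1 : ‖e3 i‖ = 1 := by simp
  rw [h1, mul_one] at h
  exact h.trans (U.norm_relVel_le v)

/-- `kk` is smooth near the closed unit ball -/
theorem contDiffAt_kk {α : R3 → R3} (hα : ContDiff ℝ ∞ α) {w : R3} (hw : ‖w‖ ≤ 1) (v : R3) :
    ContDiffAt ℝ ∞ (fun p : R3 × R3 => kk α p.1 p.2) (w, v) := by
  unfold kk
  have hr : ContDiff ℝ ∞ fun p : R3 × R3 => relVel p.2 := smooth_relVel.comp contDiff_snd
  refine ContDiffAt.div ?_ ?_ (den_pos hw v).ne'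
  · exact ((hα.comp contDiff_snd).inner ℝ (hr.add contDiff_fst)).contDiffAt
  · exact (contDiff_const.add (hr.inner ℝ contDiff_fst)).contDiffAt

variable {f₀ : R3 → R3 → ℝ} {E₀ B₀ : R3 → R3} {T : ℝ}

theorem sol_f0 (s : Sol f₀ E₀ B₀ T) (z : P6) : s.L.f (0, z) = f₀ z.1 z.2 := by
  have h := s.L.trans 0 z
  rw [s.L.Z0] at h
  exact h

/-- `bij`, `trans` -/
theorem sol_le (s : Sol f₀ E₀ B₀ T) {L : ℝ} (hL : ∀ x v, f₀ x v ≤ L) (p : ℝ × P6) : s.L.f p ≤ L := by
  obtain ⟨z, hz⟩ := (s.L.bij p.1).2 p.2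
  have h := s.L.trans p.1 z
  rw [hz] at h
  have h2 : s.L.f p = f₀ z.1 z.2 := h
  rw [h2]
  exact hL _ _

theorem bac_cross {X : Type*} [NormedAddCommGroup X] [NormedSpace ℝ X] {e b : X → R3} (he : ContDiff ℝ ∞ e)
    (hb : ContDiff ℝ ∞ b) : ContDiff ℝ ∞ fun x => cross3 (e x) (b x) := by
  have h : ∀ i j, ContDiff ℝ ∞ fun x => e x i * b x j := fun i j =>
    (contDiff_euclidean.1 he i).mul (contDiff_euclidean.1 hb j)
  refine contDiff_euclidean.2 fun i => ?_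
  fin_cases i
  exacts [(h 1 2).sub (h 2 1), (h 2 0).sub (h 0 2), (h 0 1).sub (h 1 0)]

theorem bac_pos (hd : IsAdmissibleDatum f₀ E₀ B₀) (s : Sol f₀ E₀ B₀ T) (p : ℝ × P6) : 0 ≤ s.L.f p := by
  obtain ⟨t, z⟩ := p
  obtain ⟨z, rfl⟩ := (s.L.bij t).2 z
  rw [s.L.trans]
  exact hd.1 _ _

theorem bac_supp (hd : IsAdmissibleDatum f₀ E₀ B₀) (s : Sol f₀ E₀ B₀ T) (T' : ℝ) :
    ∃ R : ℝ, 0 ≤ R ∧ ∀ (t : ℝ) (z : P6), |t| ≤ T' → R < ‖z‖ → s.L.f (t, z) = 0 := by
  obtain ⟨R, hR0, hR⟩ := (((isCompact_Icc (a := -T') (b := T')).prod hd.2.2.1.isCompact).image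
    s.L.smoothZ.continuous).isBounded.exists_pos_norm_le
  refine ⟨R, hR0.le, fun t z ht hz => ?_⟩
  obtain ⟨z, rfl⟩ := (s.L.bij t).2 z
  rw [s.L.trans]
  by_contra h
  exact hz.not_ge (hR _ ⟨(t, z), ⟨abs_le.1 ht, subset_tsupport _ h⟩, rfl⟩)

/-- support: the image of the compact set `Icc (-T) T ×ˢ tsupport f₀` under the flow is bounded; `vla`: differentiate `trans`, use `bij`;
`div`: `U.div_cross_relVel` -/
theorem sol_den (hd : IsAdmissibleDatum f₀ E₀ B₀) (s : Sol f₀ E₀ B₀ T) : Den s.L.f (lor s.E s.B) := by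
  have h1 : ContDiff ℝ ∞ fun p : ℝ × P6 => ((p.1, p.2.1) : ST) := contDiff_fst.prodMk (contDiff_fst.comp contDiff_snd)
  refine ⟨s.L.smooth, (s.hE.1.comp h1).add (bac_cross (smooth_relVel.comp (contDiff_snd.comp contDiff_snd)) (s.hB.1.comp h1)),
    bac_pos hd s, bac_supp hd s, ?_, fun t y v => ?_⟩
  · rintro ⟨t, z⟩
    obtain ⟨z, rfl⟩ := (s.L.bij t).2 z
    have h2 := ((s.L.smooth.differentiable (by simp)) (t, s.L.Z t z)).hasFDerivAt.comp_hasDerivAt t
      ((hasDerivAt_id t).prodMk (s.L.ode z t))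
    have h3 : HasDerivAt (s.L.f ∘ fun x => (id x, s.L.Z x z)) 0 t := by
      have : (s.L.f ∘ fun x => (id x, s.L.Z x z)) = fun _ => Function.uncurry f₀ z := funext fun x => s.L.trans x z
      rw [this]
      exact hasDerivAt_const _ _
    exact h2.unique h3
  · rw [← U.div_cross_relVel (s.B (t, y)) v]
    refine Finset.sum_congr rfl fun i _ => ?_
    exact congrArg (fun L : R3 →L[ℝ] ℝ => L (e3 i))
      (fderiv_const_add (f := fun w => cross3 (relVel w) (s.B (t, y)) i) (x := v) (s.E (t, y) i))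

theorem sol_flo (hd : IsAdmissibleDatum f₀ E₀ B₀) (s : Sol f₀ E₀ B₀ T) : Flo s.L.f s.L.Z := by
  exact ⟨s.L.smooth.continuous, bac_pos hd s, bac_supp hd s, s.L.smoothZ.continuous, s.L.Z0, fun z t => (s.L.ode z t).fst, s.vol,
    fun t z => (s.L.trans t z).trans (sol_f0 s z).symm⟩

/-- the momentum equation -/
theorem sol_dW (s : Sol f₀ E₀ B₀ T) (z : P6) (t : ℝ) :
    HasDerivAt (fun r => (s.L.Z r z).2) (lor s.E s.B (t, s.L.Z t z)) t := by
  have h := s.L.ode z t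
  exact ((ContinuousLinearMap.snd ℝ R3 R3).hasFDerivAt.comp_hasDerivAt t h)

/-- bounds of the datum -/
theorem datum_bounds (hd : IsAdmissibleDatum f₀ E₀ B₀) : ∃ L : ℝ, 1 ≤ L ∧ (∀ x v, f₀ x v ≤ L) ∧
    (∀ z : P6, f₀ z.1 z.2 ≠ 0 → ‖z‖ ≤ L) ∧ (∀ x, ‖E₀ x‖ ≤ L ∧ ‖B₀ x‖ ≤ L) ∧
    ∀ x, ‖fderiv ℝ E₀ x‖ ≤ L ∧ ‖fderiv ℝ B₀ x‖ ≤ L := by
  obtain ⟨-, hs, hc, -, -, hb, -⟩ := hd
  obtain ⟨C0, h0⟩ := hb 0
  obtain ⟨C1, h1⟩ := hb 1
  obtain ⟨M, hM⟩ := hs.continuous.bounded_above_of_compact_support hc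
  obtain ⟨R, hR⟩ := hc.isCompact.isBounded.exists_norm_le
  refine ⟨max (max 1 M) (max R (max C0 C1)), by simp, fun x v => ?_, fun z hz => ?_, fun x => ?_, fun x => ?_⟩
  · have := (le_abs_self _).trans (hM (x, v))
    exact this.trans (by simp)
  · exact (hR z (subset_tsupport _ hz)).trans (by simp)
  · have := h0 x
    rw [norm_iteratedFDeriv_zero, norm_iteratedFDeriv_zero] at this
    exact ⟨this.1.trans (by simp), this.2.trans (by simp)⟩
  · have := h1 x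
    rw [norm_iteratedFDeriv_one, norm_iteratedFDeriv_one] at this
    exact ⟨this.1.trans (by simp), this.2.trans (by simp)⟩

end Crest.Agent.R106.Rep
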