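import Crest.Agent.R106.Rep.GS
import Crest.Agent.R106.Wave.Kirch

/-! Row 106, frame block: the wave equations for the fields and the data terms. -/

set_option autoImplicit false

noncomputable section

namespace Crest.Agent.R106.Rep

open MeasureTheory Metric Set Filter Topology
open scoped ContDiff InnerProductSpace ENNReal
open Crest.AnalysisR.VecCalc3 Crest.AnalysisR.PDE.RVM Crest.Agent.R106.Wave

variable {f : ℝ × P6 → ℝ} {F : ℝ × P6 → R3}

theorem boxa_out {R : ℝ} {v : R3} (hv : v ∉ closedBall (0 : R3) R) (y : R3) : R < ‖((y, v) : P6)‖ := by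
  have : R < ‖v‖ := by simpa using hv
  exact this.trans_le (norm_snd_le ((y, v) : P6))

theorem boxa_loc (h : Den f F) (c : R3 → ℝ) (p : ST) : ∃ R : ℝ,
    ((fun q : ST => ∫ v, c v * f (q.1, (q.2, v))) =ᶠ[𝓝 p]
      fun q : ST => ∫ v in closedBall (0 : R3) R, c v * f (q.1, (q.2, v))) ∧
    ∀ v ∉ closedBall (0 : R3) R, ∀ e, D e f (p.1, (p.2, v)) = 0 := by
  obtain ⟨R, -, hR⟩ := D_supp h (|p.1| + 1)
  refine ⟨R, ?_, fun v hv e => (hR p.1 _ (by linarith) (boxa_out hv _)).2 e⟩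
  have ho : ∀ᶠ q : ST in 𝓝 p, |q.1| < |p.1| + 1 :=
    (continuous_fst.abs.continuousAt (x := p)).eventually_lt continuousAt_const (by simp)
  filter_upwards [ho] with q hq
  refine (setIntegral_eq_integral_of_forall_compl_eq_zero fun v hv => ?_).symm
  rw [(hR q.1 _ hq.le (boxa_out hv _)).1, mul_zero]

theorem boxa_sm (h : Den f F) {c : R3 → ℝ} (hc : ContDiff ℝ ∞ c) :
    ContDiff ℝ ∞ fun z : ST × R3 => c z.2 * f (z.1.1, (z.1.2, z.2)) :=
  (hc.comp contDiff_snd).mul (h.hf.comp (by fun_prop))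

theorem boxa_fin (R : ℝ) : IsFiniteMeasure ((volume : Measure R3).restrict (closedBall 0 R)) :=
  isFiniteMeasure_restrict.2 (isCompact_closedBall _ _).measure_lt_top.ne

theorem boxa_int (h : Den f F) {c : R3 → ℝ} (hc : Continuous c) (e : ℝ × P6) (p : ST) :
    Integrable fun v => c v * D e f (p.1, (p.2, v)) := by
  obtain ⟨R, -, hR⟩ := boxa_loc h c p
  refine Continuous.integrable_of_hasCompactSupport (hc.mul ((smooth_D h.hf e).continuous.comp (by fun_prop))) ?_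
  exact HasCompactSupport.intro (isCompact_closedBall (0 : R3) R) fun v hv => by rw [hR v hv, mul_zero]

theorem boxa_lin (f : ℝ × P6 → ℝ) (a : ℝ) (b : R3) (z : ℝ × P6) :
    D (a, ((b, 0) : P6)) f z = a * D ((1 : ℝ), ((0, 0) : P6)) f z + ∑ i : Fin 3, b i * D ((0 : ℝ), ((e3 i, 0) : P6)) f z := by
  have : ((a, ((b, 0) : P6)) : ℝ × P6) =
      a • ((1 : ℝ), ((0, 0) : P6)) + ∑ i : Fin 3, b i • (((0 : ℝ), ((e3 i, 0) : P6)) : ℝ × P6) := by
    ext j
    · simp [Fin.sum_univ_three]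
    · fin_cases j <;> simp [Fin.sum_univ_three]
    · simp [Fin.sum_univ_three]
  simp only [D_apply]
  rw [this, map_add, map_smul, map_sum]
  simp only [map_smul, smul_eq_mul]

/-- moments are smooth (near `p` the integral is over a fixed closed ball: `contDiffAt_int` with `volume.restrict`, `D_supp`) -/
theorem smooth_mom (h : Den f F) {c : R3 → ℝ} (hc : ContDiff ℝ ∞ c) :
    ContDiff ℝ ∞ fun p : ST => ∫ v, c v * f (p.1, (p.2, v)) := by
  refine contDiff_iff_contDiffAt.2 fun p => ?_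
  obtain ⟨R, hR, -⟩ := boxa_loc h c p
  have := boxa_fin R
  refine ContDiffAt.congr_of_eventuallyEq ?_ hR
  exact (contDiff_int (μ := (volume : Measure R3).restrict (closedBall 0 R)) (isCompact_closedBall (0 : R3) R)
    (ae_restrict_mem measurableSet_closedBall) (n := ⊤) (boxa_sm h hc)).contDiffAt

/-- differentiation under the integral (`fderiv_int_apply`) -/
theorem D_mom (h : Den f F) {c : R3 → ℝ} (hc : ContDiff ℝ ∞ c) (e p : ST) :
    D e (fun p : ST => ∫ v, c v * f (p.1, (p.2, v))) p = ∫ v, c v * D (e.1, ((e.2, 0) : P6)) f (p.1, (p.2, v)) := by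
  obtain ⟨R, hR, h0⟩ := boxa_loc h c p
  have := boxa_fin R
  rw [D_apply, hR.fderiv_eq]
  have h1 := fderiv_int_apply (μ := (volume : Measure R3).restrict (closedBall 0 R)) (isCompact_closedBall (0 : R3) R)
    (ae_restrict_mem measurableSet_closedBall) (F := fun z : ST × R3 => c z.2 * f (z.1.1, (z.1.2, z.2))) (p := p)
    (fun u _ => ((boxa_sm h hc).of_le (by simp)).contDiffAt) e
  refine h1.trans (Eq.trans ?_ (setIntegral_eq_integral_of_forall_compl_eq_zero (s := closedBall (0 : R3) R)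
    (fun v hv => by rw [h0 v hv, mul_zero])))
  refine integral_congr_ae (Eventually.of_forall fun v => ?_)
  have hL : HasFDerivAt (fun z : ST × R3 => ((z.1.1, (z.1.2, z.2)) : ℝ × P6))
      (((ContinuousLinearMap.fst ℝ ℝ R3).comp (ContinuousLinearMap.fst ℝ ST R3)).prod
        (((ContinuousLinearMap.snd ℝ ℝ R3).comp (ContinuousLinearMap.fst ℝ ST R3)).prod (ContinuousLinearMap.snd ℝ ST R3))) (p, v) :=
    (((ContinuousLinearMap.fst ℝ ℝ R3).comp (ContinuousLinearMap.fst ℝ ST R3)).prod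
      (((ContinuousLinearMap.snd ℝ ℝ R3).comp (ContinuousLinearMap.fst ℝ ST R3)).prod
        (ContinuousLinearMap.snd ℝ ST R3))).hasFDerivAt
  have h2 := ((h.hf.differentiable (by simp)) (p.1, (p.2, v))).hasFDerivAt.comp (p, v) hL
  have h3 := ((hc.differentiable (by simp)) v).hasFDerivAt.comp ((p, v) : ST × R3) (hasFDerivAt_snd (𝕜 := ℝ) (p := (p, v)))
  have h4 := (h3.mul h2).fderiv
  refine (congrArg (fun L : ST × R3 →L[ℝ] ℝ => L (e, 0)) h4).trans ?_
  simp [D_apply]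

/-- coordinates of the current -/
theorem cur_coord (h : Den f F) (t : ℝ) (x : R3) (i : Fin 3) :
    currentDensity (cur3 f) t x i = ∫ v, relVel v i * f (t, (x, v)) := by
  obtain ⟨R, -, hR⟩ := h.supp |t|
  have hi : Integrable fun v => f (t, (x, v)) • relVel v := by
    refine Continuous.integrable_of_hasCompactSupport
      ((h.hf.continuous.comp (by fun_prop)).smul smooth_relVel.continuous) ?_
    exact HasCompactSupport.intro (isCompact_closedBall (0 : R3) R) fun v hv => by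
      rw [hR t _ le_rfl (boxa_out hv _), zero_smul]
  have := ((EuclideanSpace.proj i : R3 →L[ℝ] ℝ).integral_comp_comm hi).symm
  refine Eq.trans this ?_
  simp [mul_comm]

theorem src_alE (h : Den f F) (i : Fin 3) (p : ST) : src (alE i) f p =
    D et (fun p : ST => ∫ v, relVel v i * f (p.1, (p.2, v))) p + D (ex i) (fun p : ST => ∫ v, f (p.1, (p.2, v))) p := by
  have hu : ∀ j : Fin 3, ContDiff ℝ ∞ fun v => relVel v j := fun j =>
    (EuclideanSpace.proj j : R3 →L[ℝ] ℝ).contDiff.comp smooth_relVel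
  have h1 := D_mom h (c := fun _ => (1 : ℝ)) contDiff_const (ex i) p
  have h2 := boxa_int h (c := fun _ => (1 : ℝ)) continuous_const ((0 : ℝ), ((e3 i, 0) : P6)) p
  simp only [one_mul] at h1 h2
  rw [D_mom h (hu i), h1, ← integral_add (boxa_int h (hu i).continuous _ p) h2]
  refine integral_congr_ae (Eventually.of_forall fun v => ?_)
  simp only [alE]
  rw [boxa_lin]
  fin_cases i <;> simp [EuclideanSpace.inner_single_left]

theorem src_alB (h : Den f F) (i : Fin 3) (p : ST) : src (alB i) f p =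
    D (ex (i + 1)) (fun p : ST => ∫ v, relVel v (i + 2) * f (p.1, (p.2, v))) p -
      D (ex (i + 2)) (fun p : ST => ∫ v, relVel v (i + 1) * f (p.1, (p.2, v))) p := by
  have hu : ∀ j : Fin 3, ContDiff ℝ ∞ fun v => relVel v j := fun j =>
    (EuclideanSpace.proj j : R3 →L[ℝ] ℝ).contDiff.comp smooth_relVel
  rw [D_mom h (hu _), D_mom h (hu _), ← integral_sub (boxa_int h (hu _).continuous _ p) (boxa_int h (hu _).continuous _ p)]
  refine integral_congr_ae (Eventually.of_forall fun v => ?_)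
  simp only [alB]
  rw [boxa_lin]
  have h0 : ⟪cross3 (relVel v) (e3 i), relVel v⟫_ℝ = 0 := by
    fin_cases i <;> simp [cross3, PiLp.inner_apply, Fin.sum_univ_three] <;> ring
  rw [h0]
  fin_cases i <;> simp [cross3, Fin.sum_univ_three] <;> ring

theorem boxb_sum (g : Fin 3 → ℝ) (i : Fin 3) : ∑ k, g k = g i + g (i + 1) + g (i + 2) := by
  rw [Fin.sum_univ_three]
  fin_cases i
  · rfl
  · show g 0 + g 1 + g 2 = g 1 + g 2 + g 0
    ring
  · show g 0 + g 1 + g 2 = g 2 + g 0 + g 1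
    ring

theorem boxb_congr {u v : ST → ℝ} {U : Set ST} (hU : IsOpen U) (h : ∀ p ∈ U, u p = v p) {p : ST} (hp : p ∈ U) (a : ST) :
    D a u p = D a v p := by
  have : u =ᶠ[𝓝 p] v := Filter.eventually_of_mem (hU.mem_nhds hp) h
  unfold D; rw [this.fderiv_eq]

/-- Maxwell's equations in coordinates give the wave equations on an open set of space-time -/
theorem box_of_maxwell {E B j : Fin 3 → ST → ℝ} {ρ : ST → ℝ} (hE : ∀ i, ContDiff ℝ ∞ (E i)) (hB : ∀ i, ContDiff ℝ ∞ (B i))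
    (hj : ∀ i, ContDiff ℝ ∞ (j i)) (hρ : ContDiff ℝ ∞ ρ) {U : Set ST} (hU : IsOpen U)
    (h1 : ∀ p ∈ U, ∀ i, D et (E i) p = D (ex (i + 1)) (B (i + 2)) p - D (ex (i + 2)) (B (i + 1)) p - j i p)
    (h2 : ∀ p ∈ U, ∀ i, D et (B i) p = -(D (ex (i + 1)) (E (i + 2)) p - D (ex (i + 2)) (E (i + 1)) p))
    (h3 : ∀ p ∈ U, ∑ i, D (ex i) (E i) p = ρ p) (h4 : ∀ p ∈ U, ∑ i, D (ex i) (B i) p = 0) {p : ST} (hp : p ∈ U) (i : Fin 3) :
    box (E i) p = -(D et (j i) p + D (ex i) ρ p) ∧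
      box (B i) p = D (ex (i + 1)) (j (i + 2)) p - D (ex (i + 2)) (j (i + 1)) p := by
  have df : ∀ {u : ST → ℝ}, ContDiff ℝ ∞ u → DifferentiableAt ℝ u p := fun hu => hu.differentiable (by simp) p
  have dd : ∀ {u : ST → ℝ}, ContDiff ℝ ∞ u → ∀ a, DifferentiableAt ℝ (D a u) p := fun hu a => df (smooth_D hu a)
  have cm : ∀ {u : ST → ℝ}, ContDiff ℝ ∞ u → ∀ a b, D a (D b u) p = D b (D a u) p := fun hu a b =>
    D_comm (hu.contDiffAt.of_le (show ((2 : ℕ∞) : WithTop ℕ∞) ≤ ((⊤ : ℕ∞) : WithTop ℕ∞) by exact_mod_cast le_top)) a b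
  have H1 : ∀ a k, D a (D et (E k)) p =
      D a (D (ex (k + 1)) (B (k + 2))) p - D a (D (ex (k + 2)) (B (k + 1))) p - D a (j k) p := fun a k => by
    rw [boxb_congr hU (fun q hq => h1 q hq k) hp a, D_sub ((dd (hB _) _).fun_sub (dd (hB _) _)) (df (hj k)),
      D_sub (dd (hB _) _) (dd (hB _) _)]
  have H2 : ∀ a k, D a (D et (B k)) p =
      -(D a (D (ex (k + 1)) (E (k + 2))) p - D a (D (ex (k + 2)) (E (k + 1))) p) := fun a k => by
    rw [boxb_congr hU (fun q hq => h2 q hq k) hp a, D_neg, D_sub (dd (hE _) _) (dd (hE _) _)]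
  have H3 : ∀ a, ∑ k, D a (D (ex k) (E k)) p = D a ρ p := fun a => by
    rw [← boxb_congr hU h3 hp a, D_sum _ fun k _ => dd (hE k) _]
  have H4 : ∀ a, ∑ k, D a (D (ex k) (B k)) p = 0 := fun a => by
    rw [← D_sum _ fun k _ => dd (hB k) _, boxb_congr hU h4 hp a]
    simp [D]
  have e11 : i + 1 + 1 = i + 2 := by fin_cases i <;> rfl
  have e12 : i + 1 + 2 = i := by fin_cases i <;> rfl
  have e21 : i + 2 + 1 = i := by fin_cases i <;> rfl
  have e22 : i + 2 + 2 = i + 1 := by fin_cases i <;> rfl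
  constructor
  · have a1 := H1 et i
    have a2 := H2 (ex (i + 1)) (i + 2)
    have a3 := H2 (ex (i + 2)) (i + 1)
    have a4 := H3 (ex i)
    rw [e21, e22] at a2
    rw [e11, e12] at a3
    rw [boxb_sum _ i] at a4
    have c1 := cm (hB (i + 2)) et (ex (i + 1))
    have c2 := cm (hB (i + 1)) et (ex (i + 2))
    have c3 := cm (hE (i + 1)) (ex i) (ex (i + 1))
    have c4 := cm (hE (i + 2)) (ex i) (ex (i + 2))
    simp only [box, LapX]
    rw [boxb_sum _ i]
    linarith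
  · have a1 := H2 et i
    have a2 := H1 (ex (i + 1)) (i + 2)
    have a3 := H1 (ex (i + 2)) (i + 1)
    have a4 := H4 (ex i)
    rw [e21, e22] at a2
    rw [e11, e12] at a3
    rw [boxb_sum _ i] at a4
    have c1 := cm (hE (i + 2)) et (ex (i + 1))
    have c2 := cm (hE (i + 1)) et (ex (i + 2))
    have c3 := cm (hB (i + 1)) (ex i) (ex (i + 1))
    have c4 := cm (hB (i + 2)) (ex i) (ex (i + 2))
    simp only [box, LapX]
    rw [boxb_sum _ i]
    linarith

variable {f₀ : R3 → R3 → ℝ} {E₀ B₀ : R3 → R3} {T : ℝ}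

theorem boxc_cd {X : Type} [NormedAddCommGroup X] [NormedSpace ℝ X] {u : X → R3} (hu : ContDiff ℝ ∞ u) (i : Fin 3) :
    ContDiff ℝ ∞ fun q => u q i := (EuclideanSpace.proj i : R3 →L[ℝ] ℝ).contDiff.comp hu

theorem boxc_pd {u : ST → R3} (hu : ContDiff ℝ ∞ u) (t : ℝ) (x : R3) (j k : Fin 3) :
    pderiv (fun y => cur2 u t y j) k x = D (ex k) (fun q => u q j) (t, x) :=
  D_sl ((boxc_cd hu j).differentiable (by simp) (t, x)) (e3 k)

theorem boxc_dt {u : ST → R3} (hu : ContDiff ℝ ∞ u) (t : ℝ) (x : R3) (i : Fin 3) :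
    deriv (fun s => cur2 u s x i) t = D et (fun q => u q i) (t, x) :=
  (hasDerivAt_time ((boxc_cd hu i).differentiable (by simp) (t, x))).deriv

theorem boxc_curl (G : R3 → R3) (x : R3) (i : Fin 3) :
    curl3 G x i = pderiv (fun y => G y (i + 2)) (i + 1) x - pderiv (fun y => G y (i + 1)) (i + 2) x := by
  fin_cases i <;> rfl

/-- the equations of a solution in coordinates (unfold `EquationsHoldAt`, `curl3`, `div3`, `pderiv`; `hasDerivAt_time`, `D_sl`, `cur_coord`) -/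
theorem sol_maxwell (hd : IsAdmissibleDatum f₀ E₀ B₀) (s : Sol f₀ E₀ B₀ T) {p : ST} (h0 : 0 ≤ p.1) (hT : p.1 ≤ T) :
    (∀ i : Fin 3, D et (fun q => s.E q i) p = D (ex (i + 1)) (fun q => s.B q (i + 2)) p -
      D (ex (i + 2)) (fun q => s.B q (i + 1)) p - ∫ v, relVel v i * s.L.f (p.1, (p.2, v))) ∧
    (∀ i : Fin 3, D et (fun q => s.B q i) p =
      -(D (ex (i + 1)) (fun q => s.E q (i + 2)) p - D (ex (i + 2)) (fun q => s.E q (i + 1)) p)) ∧
    ∑ i : Fin 3, D (ex i) (fun q => s.E q i) p = ∫ v, s.L.f (p.1, (p.2, v)) ∧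
    ∑ i : Fin 3, D (ex i) (fun q => s.B q i) p = 0 := by
  obtain ⟨t, x⟩ := p
  obtain ⟨-, e1, e2, e3, e4⟩ := s.eqs t h0 hT x
  refine ⟨fun i => ?_, fun i => ?_, ?_, ?_⟩
  · have h := e1 i
    rw [boxc_dt s.hE.1, boxc_curl, boxc_pd s.hB.1, boxc_pd s.hB.1, cur_coord (sol_den hd s)] at h
    linarith
  · have h := e2 i
    rw [boxc_dt s.hB.1, boxc_curl, boxc_pd s.hE.1, boxc_pd s.hE.1] at h
    linarith
  · simp only [div3, boxc_pd s.hE.1] at e3
    exact e3
  · simp only [div3, boxc_pd s.hB.1] at e4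
    exact e4

/-- `box_of_maxwell` on `Ioo 0 T ×ˢ univ`, `sol_maxwell`, `src_alE`, `src_alB` -/
theorem sol_box (hd : IsAdmissibleDatum f₀ E₀ B₀) (s : Sol f₀ E₀ B₀ T) {p : ST} (h0 : 0 < p.1) (hT : p.1 < T) (i : Fin 3) :
    box (fun q => s.E q i) p = -src (alE i) s.L.f p ∧ box (fun q => s.B q i) p = src (alB i) s.L.f p := by
  have hden := sol_den hd s
  have hc : ∀ {u : ST → R3}, ContDiff ℝ ∞ u → ∀ k : Fin 3, ContDiff ℝ ∞ fun q => u q k := fun hu k =>
    (EuclideanSpace.proj (𝕜 := ℝ) k : R3 →L[ℝ] ℝ).contDiff.comp hu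
  have hv : ∀ k : Fin 3, ContDiff ℝ ∞ fun v : R3 => relVel v k := fun k =>
    (EuclideanSpace.proj (𝕜 := ℝ) k : R3 →L[ℝ] ℝ).contDiff.comp smooth_relVel
  have hρ : ContDiff ℝ ∞ fun p : ST => ∫ v, s.L.f (p.1, (p.2, v)) := by
    simpa using smooth_mom hden (c := fun _ => 1) contDiff_const
  have hU : IsOpen {q : ST | 0 < q.1 ∧ q.1 < T} :=
    (isOpen_lt continuous_const continuous_fst).inter (isOpen_lt continuous_fst continuous_const)
  have key := box_of_maxwell (E := fun k q => s.E q k) (B := fun k q => s.B q k)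
    (j := fun k (p : ST) => ∫ v, relVel v k * s.L.f (p.1, (p.2, v))) (ρ := fun p : ST => ∫ v, s.L.f (p.1, (p.2, v)))
    (hc s.hE.1) (hc s.hB.1) (fun k => smooth_mom hden (hv k)) hρ hU
    (fun q hq => (sol_maxwell hd s hq.1.le hq.2.le).1) (fun q hq => (sol_maxwell hd s hq.1.le hq.2.le).2.1)
    (fun q hq => (sol_maxwell hd s hq.1.le hq.2.le).2.2.1) (fun q hq => (sol_maxwell hd s hq.1.le hq.2.le).2.2.2)
    (p := p) ⟨h0, hT⟩ i
  rw [src_alE hden, src_alB hden]
  exact key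

/-- `S` only sees the open time interval (`intervalIntegral.integral_congr_ae`) -/
theorem S_congr_Ioo {G G' : ST → ℝ} {s : ℝ} (hs : 0 ≤ s) (x : R3) (h : ∀ t ∈ Ioo 0 s, ∀ y, G (t, y) = G' (t, y)) :
    S G (s, x) = S G' (s, x) := by
  refine intervalIntegral.integral_congr_uIoo fun r hr => ?_
  have hr' : r ∈ Ioo 0 s := by rwa [show ((s, x) : ST).1 = s from rfl, uIoo_of_le hs] at hr
  have : s - r ∈ Ioo 0 s := ⟨by linarith [hr'.2], by linarith [hr'.1]⟩
  simp only [N, h _ this]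

theorem boxc_fd {g : R3 → R3} (hg : ContDiff ℝ ∞ g) {L : ℝ} (y : R3) (h : ‖fderiv ℝ g y‖ ≤ L) (i : Fin 3) :
    ‖fderiv ℝ (fun y => g y i) y‖ ≤ L := by
  refine ContinuousLinearMap.opNorm_le_bound _ ((norm_nonneg _).trans h) fun a => ?_
  have h1 : D a (fun y => g y i) y = D a g y i :=
    D_clm (EuclideanSpace.proj i : R3 →L[ℝ] ℝ) (hg.differentiable (by simp) y) a
  rw [← D_apply, h1]
  exact (PiLp.norm_apply_le _ i).trans ((ContinuousLinearMap.le_opNorm _ _).trans (by gcongr))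

theorem boxc_data {u : ST → R3} (hu : ContDiff ℝ ∞ u) {g : R3 → R3} (hg : ∀ x, u (0, x) = g x) {L : ℝ} (h0 : ∀ x, ‖g x‖ ≤ L)
    (h1 : ∀ x, ‖fderiv ℝ g x‖ ≤ L) :
    (∀ (i : Fin 3) (p : ST), |D et (W (sl (fun q => u q i) 0)) p| ≤ L + |p.1| * L) ∧
      ∀ (j k : Fin 3) (y : R3), |D (ex k) (fun q => u q j) (0, y)| ≤ L := by
  have hgs : ContDiff ℝ ∞ g := by
    rw [← funext hg]; exact contDiff_sl hu 0
  have hsl : ∀ i : Fin 3, sl (fun q => u q i) 0 = fun y => g y i := fun i => funext fun y => by simp only [sl, hg]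
  refine ⟨fun i p => ?_, fun j k y => ?_⟩
  · rw [hsl]
    exact norm_Dt_W_le ((boxc_cd hgs i).of_le (by simp)) (fun y => (PiLp.norm_apply_le _ i).trans (h0 y))
      (fun y => boxc_fd hgs y (h1 y) i) p
  · rw [← D_sl ((boxc_cd hu j).differentiable (by simp) (0, y)) (e3 k), hsl, D_apply]
    refine ((fderiv ℝ (fun y => g y j) y).le_opNorm (e3 k)).trans ?_
    simpa using boxc_fd hgs y (h1 y) j

/-- the Kirchhoff data terms: `norm_Dt_W_le`, `norm_W_le`, `sol_maxwell` at time `0`, `datum_bounds` -/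
theorem data_le (hd : IsAdmissibleDatum f₀ E₀ B₀) (T : ℝ) : ∃ C : ℝ, ∀ T' ≤ T, ∀ (s : Sol f₀ E₀ B₀ T') (t : ℝ), t ∈ Icc 0 T' →
    ∀ (x : R3) (i : Fin 3),
      |D et (W (sl (fun q => s.E q i) 0)) (t, x) + W (sl (D et fun q => s.E q i) 0) (t, x)| ≤ C ∧
      |D et (W (sl (fun q => s.B q i) 0)) (t, x) + W (sl (D et fun q => s.B q i) 0) (t, x)| ≤ C := by
  obtain ⟨L, hL, hf, hs, h0, h1⟩ := datum_bounds hd
  set J : ℝ := L * volume.real (closedBall (0 : R3) L) with hJ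
  have hJ0 : 0 ≤ J := by positivity
  refine ⟨L + T * L + T * (2 * L + J), fun T' hT' s t ht x i => ?_⟩
  obtain ⟨a1, a2⟩ := boxc_data s.hE.1 s.initE (fun x => (h0 x).1) fun x => (h1 x).1
  obtain ⟨b1, b2⟩ := boxc_data s.hB.1 s.initB (fun x => (h0 x).2) fun x => (h1 x).2
  have hf0 : ∀ y v, s.L.f (0, (y, v)) = f₀ y v := fun y v => by
    have h := s.L.trans 0 (y, v)
    rwa [s.L.Z0] at h
  have hj : ∀ y, |∫ v, relVel v i * s.L.f (0, (y, v))| ≤ J := fun y => by
    rw [← setIntegral_eq_integral_of_forall_compl_eq_zero (s := closedBall (0 : R3) L) fun v hv => ?_]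
    · refine norm_setIntegral_le_of_norm_le_const (μ := volume) (f := fun v => relVel v i * s.L.f (0, (y, v)))
        measure_closedBall_lt_top fun v _ => ?_
      rw [hf0, norm_mul, Real.norm_of_nonneg (hd.1 y v), ← one_mul L]
      exact mul_le_mul ((PiLp.norm_apply_le _ i).trans (norm_relVel_lt v).le) (hf y v) (hd.1 y v) zero_le_one
    · rw [hf0]
      by_contra h
      exact hv (mem_closedBall_zero_iff.2 ((norm_snd_le (y, v)).trans (hs (y, v) (right_ne_zero_of_mul h))))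
  have hm := fun y : R3 => sol_maxwell hd s (p := (0, y)) le_rfl (ht.1.trans ht.2)
  have hE : ∀ y, ‖sl (D et fun q => s.E q i) 0 y‖ ≤ 2 * L + J := fun y => by
    have c1 := abs_le.1 (b2 (i + 2) (i + 1) y)
    have c2 := abs_le.1 (b2 (i + 1) (i + 2) y)
    have c3 := abs_le.1 (hj y)
    rw [sl, (hm y).1 i, Real.norm_eq_abs, abs_le]
    constructor <;> linarith [c1.1, c1.2, c2.1, c2.2, c3.1, c3.2]
  have hB : ∀ y, ‖sl (D et fun q => s.B q i) 0 y‖ ≤ 2 * L + J := fun y => by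
    have c1 := abs_le.1 (a2 (i + 2) (i + 1) y)
    have c2 := abs_le.1 (a2 (i + 1) (i + 2) y)
    rw [sl, (hm y).2.1 i, Real.norm_eq_abs, abs_le]
    constructor <;> linarith [c1.1, c1.2, c2.1, c2.2]
  have htT : |t| ≤ T := by rw [abs_of_nonneg ht.1]; exact ht.2.trans hT'
  have k1 : |t| * L ≤ T * L := by gcongr
  have k2 : |t| * (2 * L + J) ≤ T * (2 * L + J) := by gcongr
  exact ⟨(abs_add_le _ _).trans (add_le_add ((a1 i (t, x)).trans (by linarith)) ((norm_W_le hE (t, x)).trans k2)),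
    (abs_add_le _ _).trans (add_le_add ((b1 i (t, x)).trans (by linarith)) ((norm_W_le hB (t, x)).trans k2))⟩

/-- `kirchhoff`, `S_congr_Ioo`, `sol_box`, `gs_polar`, `bdry_le`, `data_le` -/
theorem field_pol (hd : IsAdmissibleDatum f₀ E₀ B₀) (T : ℝ) : ∃ C : ℝ, ∀ T' ≤ T, ∀ (s : Sol f₀ E₀ B₀ T') (t : ℝ), t ∈ Icc 0 T' →
    ∀ (x : R3) (i : Fin 3), |s.E (t, x) i + pol (alE i) s.L.f (lor s.E s.B) t x| ≤ C ∧
      |s.B (t, x) i - pol (alB i) s.L.f (lor s.E s.B) t x| ≤ C := by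
  obtain ⟨L, hL1, hL, hLs, -⟩ := datum_bounds hd
  obtain ⟨C₁, hC₁, hb⟩ := bdry_le L
  obtain ⟨C₂, hdat⟩ := data_le hd T
  refine ⟨C₂ + T * C₁, fun T' hT' s t ht x i => ?_⟩
  have hb' : ∀ α : R3 → R3, (∀ v, ‖α v‖ ≤ 1) → |bdry α s.L.f t x| ≤ T * C₁ := fun α hα => by
    refine (hb α s.L.f hα (fun z => ?_) (fun z hz => ?_) t x ht.1).trans (mul_le_mul_of_nonneg_right (ht.2.trans hT') hC₁)
    · rw [sol_f0, abs_of_nonneg (hd.1 _ _)]
      exact hL _ _
    · rw [sol_f0]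
      by_contra hne
      exact absurd ((norm_snd_le z).trans (hLs z hne)) hz.not_ge
  have hc : ∀ {u : ST → R3}, ContDiff ℝ ∞ u → ContDiff ℝ 2 fun q => u q i := fun hu =>
    ((EuclideanSpace.proj (𝕜 := ℝ) i).contDiff.comp hu).of_le (WithTop.coe_le_coe.2 (le_top : (2 : ℕ∞) ≤ ⊤))
  have e1 := kirchhoff (hc s.hE.1) (t, x)
  have e2 := kirchhoff (hc s.hB.1) (t, x)
  rw [S_congr_Ioo (G' := fun p => -src (alE i) s.L.f p) ht.1 x
    (fun τ hτ y => (sol_box hd s (p := (τ, y)) hτ.1 (hτ.2.trans_le ht.2) i).1), S_neg,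
    gs_polar (sol_den hd s) (smooth_alE i) ht.1 x] at e1
  rw [S_congr_Ioo (G' := src (alB i) s.L.f) ht.1 x
    (fun τ hτ y => (sol_box hd s (p := (τ, y)) hτ.1 (hτ.2.trans_le ht.2) i).2),
    gs_polar (sol_den hd s) (smooth_alB i) ht.1 x] at e2
  obtain ⟨d1, d2⟩ := hdat T' hT' s t ht x i
  have b1 := abs_le.1 (hb' _ (norm_alE i))
  have b2 := abs_le.1 (hb' _ (norm_alB i))
  rw [abs_le] at d1 d2
  exact ⟨abs_le.2 ⟨by linarith, by linarith⟩, abs_le.2 ⟨by linarith, by linarith⟩⟩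

end Crest.Agent.R106.Rep
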