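import Crest.Agent.R106.Wave.WS
import Crest.Agent.R106.Iface
import Crest.Agent.R106.A.Defs

/-! Row 106, frame block (`Sol` to `A.Sys`): definitions (helper12).  `z = (y, v) : P6`, uncurried `f (t, (y, v))`, `E (t, y)`. -/

set_option autoImplicit false

noncomputable section

namespace Crest.Agent.R106.Rep

open MeasureTheory Metric Set Filter Topology
open scoped ContDiff InnerProductSpace ENNReal
open Crest.AnalysisR.VecCalc3 Crest.AnalysisR.PDE.RVM Crest.Agent.R106.Wave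

/-- a smooth nonnegative density with locally uniformly bounded support, transported by the divergence-free force `F` -/
structure Den (f : ℝ × P6 → ℝ) (F : ℝ × P6 → R3) : Prop where
  hf : ContDiff ℝ ∞ f
  hF : ContDiff ℝ ∞ F
  pos : ∀ p, 0 ≤ f p
  supp : ∀ T : ℝ, ∃ R : ℝ, 0 ≤ R ∧ ∀ (t : ℝ) (z : P6), |t| ≤ T → R < ‖z‖ → f (t, z) = 0
  vla : ∀ p : ℝ × P6, D ((1 : ℝ), ((relVel p.2.2, F p) : P6)) f p = 0
  div : ∀ (t : ℝ) (y v : R3), ∑ i : Fin 3, D (e3 i) (fun w => F (t, (y, w)) i) v = 0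

/-- a measure preserving flow with velocity `relVel` along which `f` is constant -/
structure Flo (f : ℝ × P6 → ℝ) (Z : ℝ → P6 → P6) : Prop where
  cf : Continuous f
  pos : ∀ p, 0 ≤ f p
  supp : ∀ T : ℝ, ∃ R : ℝ, 0 ≤ R ∧ ∀ (t : ℝ) (z : P6), |t| ≤ T → R < ‖z‖ → f (t, z) = 0
  cZ : Continuous fun p : ℝ × P6 => Z p.1 p.2
  Z0 : ∀ z, Z 0 z = z
  dY : ∀ z t, HasDerivAt (fun s => (Z s z).1) (relVel (Z t z).2) t
  mp : ∀ t, 0 ≤ t → MeasurePreserving (Z t) volume volume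
  trans : ∀ t z, f (t, Z t z) = f (0, z)

/-- the Lorentz force of a solution as a function on `ℝ × P6` -/
def lor (E B : ST → R3) (p : ℝ × P6) : R3 := force E B (p.1, p.2.1) p.2.2

/-- the particle measure `f(0) dz` -/
def mu (f : ℝ × P6 → ℝ) : Measure P6 := volume.withDensity fun z => ENNReal.ofReal (f (0, z))

/-- position, continued to `t < 0` by free motion -/
def Yx (Z : ℝ → P6 → P6) (t : ℝ) (z : P6) : R3 := (Z (max t 0) z).1 + min t 0 • relVel z.2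

/-- momentum, continued to `t < 0` by free motion -/
def Wx (Z : ℝ → P6 → P6) (t : ℝ) (z : P6) : R3 := (Z (max t 0) z).2

/-- `τ s x z` is the retarded time of the source `z` seen from `(s, x)` -/
structure IsRet (Z : ℝ → P6 → P6) (τ : ℝ → R3 → P6 → ℝ) : Prop where
  meas : Measurable fun p : (ℝ × R3) × P6 => τ p.1.1 p.1.2 p.2
  ret : ∀ s x z, s - τ s x z = ‖x - Yx Z (τ s x z) z‖
  iff : ∀ s x z t, t ≤ τ s x z ↔ t + ‖x - Yx Z t z‖ ≤ s

/-- the solid cone, in phase space -/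
def cone (s : ℝ) (x : R3) : Set P6 := {z | ‖x - z.1‖ ≤ s}

/-- `b = 1 - n · u(v)` -/
def bb (x : R3) (z : P6) : ℝ := A.ang (A.dir (x - z.1)) z.2

/-- the point of the cone above `z` -/
def up (s : ℝ) (x : R3) (z : P6) : ℝ × P6 := (s - ‖x - z.1‖, z)

/-- the kernel `k(ω, v) = α(v) · (u + ω) / (1 + u · ω)` -/
def kk (α : R3 → R3) (w v : R3) : ℝ := ⟪α v, relVel v + w⟫_ℝ / (1 + ⟪relVel v, w⟫_ℝ)

/-- the vector `A = α - k u` -/
def AA (α : R3 → R3) (w v : R3) : R3 := α v - kk α w v • relVel v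

/-- coefficient field for `E i`: `α = e i` -/
def alE (i : Fin 3) : R3 → R3 := fun _ => e3 i

/-- coefficient field for `B i`: `α = u × e i` -/
def alB (i : Fin 3) : R3 → R3 := fun v => cross3 (relVel v) (e3 i)

/-- the source `∫ ((α · u) ∂ₜ + α · ∇ₓ) f dv` -/
def src (α : R3 → R3) (f : ℝ × P6 → ℝ) (p : ST) : ℝ :=
  ∫ v, D (⟪α v, relVel v⟫_ℝ, ((α v, 0) : P6)) f (p.1, (p.2, v))

/-- boundary term of the cone at time zero -/
def bdry (α : R3 → R3) (f : ℝ × P6 → ℝ) (s : ℝ) (x : R3) : ℝ :=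
  s * ∫ w, (∫ v, ⟪AA α w v, w⟫_ℝ * f (0, (x + s • w, v))) ∂sg

/-- the Glassey-Strauss kernel (times `r²`): `k (1 - |u|²) / b + r ∇ᵥ k · F` -/
def gk (α : R3 → R3) (r : ℝ) (w v F : R3) : ℝ :=
  kk α w v * (1 + ‖v‖ ^ 2)⁻¹ / (1 + ⟪relVel v, w⟫_ℝ) + r * D F (kk α w) v

/-- the cone integral in polar coordinates -/
def pol (α : R3 → R3) (f : ℝ × P6 → ℝ) (F : ℝ × P6 → R3) (s : ℝ) (x : R3) : ℝ :=
  ∫ r in (0 : ℝ)..s, ∫ w, (∫ v, gk α r w v (F (s - r, (x + r • w, v))) * f (s - r, (x + r • w, v))) ∂sg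

/-- the Liénard-Wiechert field of the source `z` on the cone -/
def lw (F : ℝ × P6 → R3) (s : ℝ) (x : R3) (z : P6) : R3 :=
  A.ET (x - z.1) z.2 + A.ES (x - z.1) z.2 (F (up s x z))

end Crest.Agent.R106.Rep
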