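import Crest.Agent.R106.Rep.Tau

/-! Row 106, frame block: the dictionary between the particle measure and the density on the cone. -/

set_option autoImplicit false

noncomputable section

namespace Crest.Agent.R106.Rep

open MeasureTheory Metric Set Filter Topology
open scoped ContDiff InnerProductSpace ENNReal
open Crest.AnalysisR.VecCalc3 Crest.AnalysisR.PDE.RVM Crest.Agent.R106.Wave

variable {f : ℝ × P6 → ℝ} {Z : ℝ → P6 → P6} {τ : ℝ → R3 → P6 → ℝ}

theorem dicta_cont (h : Flo f Z) (t : ℝ) : Continuous fun z : P6 => f (t, z) := h.cf.comp (by fun_prop)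

theorem finite_mu (h : Flo f Z) : IsFiniteMeasure (mu f) := by
  obtain ⟨R, -, hR⟩ := h.supp 0
  refine isFiniteMeasure_withDensity_ofReal ((dicta_cont h 0).integrable_of_hasCompactSupport ?_).2
  exact HasCompactSupport.intro (isCompact_closedBall (0 : P6) R) fun z hz =>
    hR 0 z (by simp) (by simpa using hz)

theorem measurableSet_cone (s : ℝ) (x : R3) : MeasurableSet (cone s x) := by
  exact (isClosed_le (by fun_prop) continuous_const).measurableSet

theorem measurable_ret (h : Flo f Z) (hτ : IsRet Z τ) (s : ℝ) (x : R3) : Measurable fun z => Z (τ s x z) z := by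
  have h1 : Measurable fun z : P6 => τ s x z := hτ.meas.comp (f := fun z : P6 => (((s, x), z) : (ℝ × R3) × P6)) (by fun_prop)
  exact h.cZ.measurable.comp (h1.prodMk measurable_id)

/-- fixed time: `lintegral_withDensity_eq_lintegral_mul`, `trans`, `mp` -/
theorem push_lint (h : Flo f Z) {t : ℝ} (ht : 0 ≤ t) {g : P6 → ℝ≥0∞} (hg : Measurable g) :
    ∫⁻ z, g (Z t z) ∂mu f = ∫⁻ z, g z * ENNReal.ofReal (f (t, z)) := by
  have h1 : Measurable fun z => g z * ENNReal.ofReal (f (t, z)) := hg.mul (dicta_cont h t).measurable.ennreal_ofReal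
  rw [mu, lintegral_withDensity_eq_lintegral_mul _ (dicta_cont h 0).measurable.ennreal_ofReal
    (g := fun z => g (Z t z)) (hg.comp (h.mp t ht).measurable), ← (h.mp t ht).lintegral_comp h1]
  exact lintegral_congr fun z => by simp only [Pi.mul_apply, h.trans, mul_comm]

theorem push_int (h : Flo f Z) {t : ℝ} (ht : 0 ≤ t) {g : P6 → ℝ} (hg : Measurable g) :
    ∫ z, g (Z t z) ∂mu f = ∫ z, g z * f (t, z) := by
  have h1 : Measurable fun z => g z * f (t, z) := hg.mul (dicta_cont h t).measurable
  rw [mu, integral_withDensity_eq_integral_toReal_smul (dicta_cont h 0).measurable.ennreal_ofReal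
    (Eventually.of_forall fun _ => ENNReal.ofReal_lt_top)]
  conv_rhs => rw [← (h.mp t ht).map_eq, integral_map (h.mp t ht).measurable.aemeasurable h1.aestronglyMeasurable]
  exact integral_congr_ae (Eventually.of_forall fun z => by
    simp only [ENNReal.toReal_ofReal (h.pos _), h.trans, smul_eq_mul, mul_comm])

theorem dictb_cut {a b : ℝ} (hab : a ≤ b) (φ : ℝ → ℝ) :
    ∫ t in (0 : ℝ)..max a 0, φ t = ∫ t in Ioc 0 b, (Iic a).indicator φ t := by
  rw [intervalIntegral.integral_of_le (le_max_right _ _), setIntegral_indicator measurableSet_Iic]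
  congr 2
  ext t
  simp only [mem_Ioc, mem_inter_iff, mem_Iic, le_max_iff]
  constructor
  · rintro ⟨h1, h2 | h2⟩
    · exact ⟨⟨h1, h2.trans hab⟩, h2⟩
    · exact absurd h1 (not_lt.2 h2)
  · rintro ⟨⟨h1, -⟩, h2⟩
    exact ⟨h1, Or.inl h2⟩

/-- Both sides equal `∫ t in Ioc 0 |s|, ∫ z, 1_{t + ‖x - z.1‖ ≤ s} g z * f (t, z)` (Fubini twice, `IsRet.iff`, `push_int`). -/
theorem cumul (h : Flo f Z) (hτ : IsRet Z τ) (g : BoundedContinuousFunction P6 ℝ) (s : ℝ) (x : R3) :
    ∫ z, (∫ t in (0 : ℝ)..max (τ s x z) 0, g (Z t z)) ∂mu f =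
      ∫ z : P6, ∫ t in (0 : ℝ)..max (s - ‖x - z.1‖) 0, g z * f (t, z) := by
  classical
  have := finite_mu h
  set G : P6 × ℝ → ℝ := fun p => if p.2 + ‖x - p.1.1‖ ≤ s then g p.1 else 0 with hG
  have mG : Measurable G := Measurable.ite (measurableSet_le (by fun_prop) measurable_const)
    (g.continuous.measurable.comp measurable_fst) measurable_const
  have bG : ∀ p, ‖G p‖ ≤ ‖g‖ := fun p => by
    simp only [hG]
    split_ifs
    · exact g.norm_coe_le_norm _
    · simp
  have e1 : ∀ z, ∫ t in (0 : ℝ)..max (τ s x z) 0, g (Z t z) = ∫ t in Ioc 0 |s|, G (Z t z, t) := fun z => by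
    have h1 : τ s x z ≤ |s| := by
      have := hτ.ret s x z
      have := norm_nonneg (x - Yx Z (τ s x z) z)
      have := le_abs_self s
      linarith
    rw [dictb_cut h1]
    refine setIntegral_congr_fun measurableSet_Ioc fun t ht => ?_
    have h2 := hτ.iff s x z t
    rw [Yx, max_eq_left ht.1.le, min_eq_right ht.1.le, zero_smul, add_zero] at h2
    simp only [hG, indicator, mem_Iic, h2]
  have e2 : ∀ z : P6, ∫ t in (0 : ℝ)..max (s - ‖x - z.1‖) 0, g z * f (t, z) =
      ∫ t in Ioc 0 |s|, G (z, t) * f (t, z) := fun z => by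
    have h1 : s - ‖x - z.1‖ ≤ |s| := by
      have := norm_nonneg (x - z.1)
      have := le_abs_self s
      linarith
    rw [dictb_cut h1]
    refine setIntegral_congr_fun measurableSet_Ioc fun t _ => ?_
    simp only [hG, indicator, mem_Iic, le_sub_iff_add_le, ite_mul, zero_mul]
  have mZ : Measurable fun p : P6 × ℝ => (Z p.2 p.1, p.2) :=
    ((h.cZ.comp continuous_swap).measurable).prodMk measurable_snd
  have i1 : Integrable (Function.uncurry fun (z : P6) (t : ℝ) => G (Z t z, t))
      ((mu f).prod (volume.restrict (Ioc 0 |s|))) :=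
    (integrable_const ‖g‖).mono' (mG.comp mZ).aestronglyMeasurable (Eventually.of_forall fun p => bG _)
  have i2 : Integrable (Function.uncurry fun (z : P6) (t : ℝ) => G (z, t) * f (t, z))
      ((volume : Measure P6).prod (volume.restrict (Ioc 0 |s|))) := by
    obtain ⟨R, -, hR⟩ := h.supp |s|
    have j : Integrable (fun p : P6 × ℝ => f (p.2, p.1))
        ((volume : Measure P6).prod (volume.restrict (Ioc 0 |s|))) := by
      rw [← Measure.restrict_univ (μ := (volume : Measure P6)), Measure.prod_restrict]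
      have k : IntegrableOn (fun p : P6 × ℝ => f (p.2, p.1)) (closedBall (0 : P6) R ×ˢ Icc 0 |s|)
          ((volume : Measure P6).prod volume) :=
        (h.cf.comp continuous_swap).continuousOn.integrableOn_compact
          ((isCompact_closedBall _ _).prod isCompact_Icc)
      refine k.of_forall_sdiff_eq_zero (MeasurableSet.univ.prod measurableSet_Ioc) ?_
      rintro ⟨z, t⟩ ⟨⟨-, ht⟩, hn⟩
      refine hR t z (by rw [abs_of_pos ht.1]; exact ht.2) (not_le.1 fun hz => hn ⟨?_, Ioc_subset_Icc_self ht⟩)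
      exact mem_closedBall_zero_iff.2 hz
    exact j.bdd_mul (c := ‖g‖) mG.aestronglyMeasurable (Eventually.of_forall bG)
  simp only [e1, e2]
  rw [integral_integral_swap i1, integral_integral_swap i2]
  exact setIntegral_congr_fun measurableSet_Ioc fun t ht =>
    push_int h ht.1.le (g := fun z => G (z, t)) (mG.comp (measurable_id.prodMk measurable_const))

theorem dictc_null (x : R3) (s : ℝ) : (volume : Measure P6) {z | ‖x - z.1‖ = s} = 0 := by
  have e : {z : P6 | ‖x - z.1‖ = s} = sphere x s ×ˢ univ := by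
    ext z
    simp [mem_sphere_iff_norm, norm_sub_rev]
  rw [e, Measure.volume_eq_prod, Measure.prod_prod, Measure.addHaar_sphere, zero_mul]

theorem dictc_lip (g : BoundedContinuousFunction P6 ℝ) {γ : ℝ → P6} (hγ : Continuous γ) (a b : ℝ) :
    |(∫ t in (0 : ℝ)..b, g (γ t)) - ∫ t in (0 : ℝ)..a, g (γ t)| ≤ ‖g‖ * |b - a| := by
  have hc : Continuous fun t => g (γ t) := g.continuous.comp hγ
  rw [intervalIntegral.integral_interval_sub_left (hc.intervalIntegrable _ _) (hc.intervalIntegrable _ _)]
  exact intervalIntegral.norm_integral_le_of_norm_le_const fun t _ => g.norm_coe_le_norm _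

/-- `hasDerivAt_integral_of_dominated_loc_of_lip`: Lipschitz bound `‖g‖ / (1 - q)` for `f (0, z) ≠ 0` (`IsRet.lip`, `trans`, `supp`, `exists_speed`);
differentiable off the null sets `{‖x - z.1‖ = s}` and `{(Z s z).1 = x}` (`push_lint` or `mp`), `IsRet.hasDerivAt`. -/
theorem cumul_left (h : Flo f Z) (hτ : IsRet Z τ) (g : BoundedContinuousFunction P6 ℝ) {s : ℝ} (hs : 0 ≤ s) (x : R3) :
    HasDerivAt (fun r => ∫ z, (∫ t in (0 : ℝ)..max (τ r x z) 0, g (Z t z)) ∂mu f)
      (∫ z in cone s x, g (Z (τ s x z) z) * (bb x (Z (τ s x z) z))⁻¹ ∂mu f) s := by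
  have := finite_mu h
  obtain ⟨R, -, hR⟩ := h.supp (s + 1)
  obtain ⟨q, hq0, hq1, hq⟩ := exists_speed R
  have cz : ∀ z, Continuous fun t => Z t z := fun z => h.cZ.comp (Continuous.prodMk_left z)
  have cP : Continuous fun p : P6 × ℝ => ∫ t in (0 : ℝ)..p.2, g (Z t p.1) :=
    intervalIntegral.continuous_parametric_primitive_of_continuous (f := fun z t => g (Z t z))
      (g.continuous.comp (h.cZ.comp continuous_swap))
  have mF : ∀ r, Measurable fun z => ∫ t in (0 : ℝ)..max (τ r x z) 0, g (Z t z) := fun r =>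
    cP.measurable.comp (measurable_id.prodMk ((hτ.meas.comp (measurable_prodMk_left (x := (r, x)))).max measurable_const))
  have ac : mu f ≪ volume := withDensity_absolutelyContinuous _ _
  have a1 : ∀ᵐ z ∂mu f, f (0, z) ≠ 0 := by
    refine (ae_withDensity_iff (h.cf.comp (Continuous.prodMk_right 0)).measurable.ennreal_ofReal).2
      (Eventually.of_forall fun z hz h0 => hz ?_)
    simp [h0]
  have a2 : ∀ᵐ z ∂mu f, ‖x - z.1‖ ≠ s := ac.ae_le (by
    rw [mem_ae_iff]
    simpa [compl_def] using dictc_null x s)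
  have a3 : ∀ᵐ z ∂mu f, (Z s z).1 ≠ x := ac.ae_le (by
    have h1 : ∀ᵐ z : P6, ‖x - z.1‖ ≠ 0 := by
      rw [Filter.Eventually, mem_ae_iff]
      simpa [compl_def] using dictc_null x 0
    filter_upwards [(h.mp s hs).quasiMeasurePreserving.ae h1] with z hz h0
    exact hz (by rw [h0, sub_self, norm_zero]))
  rw [← integral_indicator (measurableSet_cone s x)]
  have hK : 0 ≤ ‖g‖ / (1 - q) := div_nonneg (norm_nonneg _) (by linarith)
  refine (hasDerivAt_integral_of_dominated_loc_of_lip (bound := fun _ => ‖g‖ / (1 - q)) (Iio_mem_nhds (lt_add_one s))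
    (Eventually.of_forall fun r => (mF r).aestronglyMeasurable) ?_ ?_ ?_ (integrable_const _) ?_).2
  · refine Integrable.of_bound (mF s).aestronglyMeasurable (‖g‖ * s) (Eventually.of_forall fun z => ?_)
    have h1 := dictc_lip g (cz z) 0 (max (τ s x z) 0)
    rw [intervalIntegral.integral_same, sub_zero, sub_zero, abs_of_nonneg (le_max_right (τ s x z) 0)] at h1
    exact h1.trans (mul_le_mul_of_nonneg_left (max_le (hτ.le s x z) hs) (norm_nonneg _))
  · have m1 := measurable_ret h hτ s x
    exact (((g.continuous.measurable.comp m1).mul ((measurable_bb x).comp m1).inv).indicator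
      (measurableSet_cone s x)).aestronglyMeasurable
  · filter_upwards [a1] with z hz
    have h1 : ∀ t ∈ Icc 0 (s + 1), ‖relVel (Z t z).2‖ ≤ q := by
      intro t ht
      refine hq _ ((norm_snd_le (Z t z)).trans (not_lt.1 fun h2 => hz ?_))
      rw [← h.trans t z]
      exact hR t _ (by rw [abs_of_nonneg ht.1]; exact ht.2) h2
    have h2 : ∀ a b, a ≤ b → b < s + 1 → |(∫ t in (0 : ℝ)..max (τ b x z) 0, g (Z t z)) - ∫ t in (0 : ℝ)..max (τ a x z) 0, g (Z t z)| ≤
        ‖g‖ / (1 - q) * |b - a| := by
      intro a b hab hb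
      obtain ⟨h3, h4⟩ := hτ.lip h x z hq1 h1 hab hb.le
      refine (dictc_lip g (cz z) _ _).trans ?_
      rw [abs_of_nonneg h3, abs_of_nonneg (sub_nonneg.2 hab), div_mul_eq_mul_div, mul_div_assoc]
      exact mul_le_mul_of_nonneg_left h4 (norm_nonneg _)
    refine LipschitzOnWith.of_dist_le_mul fun a ha b hb => ?_
    rw [Real.coe_nnabs, abs_of_nonneg hK, Real.dist_eq, Real.dist_eq]
    rcases le_total a b with hab | hab
    · rw [abs_sub_comm, abs_sub_comm a]
      exact h2 a b hab hb
    · exact h2 b a hab ha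
  · filter_upwards [a2, a3] with z h2 h3
    rcases h2.lt_or_gt with h4 | h4
    · have hz : z ∈ cone s x := h4.le
      have h0 := (hτ.nonneg_iff h s x z).2 hz
      have h5 := hτ.ret s x z
      have hpos : 0 < τ s x z := by
        refine h0.lt_of_ne fun h6 => h2 ?_
        rw [← h6, Yx_zero h, sub_zero] at h5
        exact h5.symm
      have hx : (Z (τ s x z) z).1 ≠ x := by
        intro h6
        rw [Yx_of_nonneg h0, h6, sub_self, norm_zero, sub_eq_zero] at h5
        rw [← h5] at h6
        exact h3 h6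
      have d1 := hτ.hasDerivAt h h0 hx
      have hc : Continuous fun t => g (Z t z) := g.continuous.comp (cz z)
      have d2 := (hc.integral_hasStrictDerivAt 0 (τ s x z)).hasDerivAt.comp s d1
      rw [indicator_of_mem hz]
      refine d2.congr_of_eventuallyEq ?_
      filter_upwards [d1.continuousAt.eventually (lt_mem_nhds hpos)] with r hr
      simp only [Function.comp_apply, max_eq_left hr.le]
    · rw [indicator_of_notMem (show z ∉ cone s x from not_le.2 h4)]
      refine (hasDerivAt_const s (0 : ℝ)).congr_of_eventuallyEq ?_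
      filter_upwards [Iio_mem_nhds h4] with r hr
      have h5 : ¬0 ≤ τ r x z := fun h6 => by
        have h7 : ‖x - z.1‖ ≤ r := (hτ.nonneg_iff h r x z).1 h6
        exact absurd h7 (not_le.2 hr)
      rw [max_eq_right (not_le.1 h5).le, intervalIntegral.integral_same]

theorem dictd_null (s : ℝ) (x : R3) : ∀ᵐ z : P6, ‖x - z.1‖ ≠ s := by
  have h1 : (volume : Measure R3) (sphere x s) = 0 := Measure.addHaar_sphere volume x s
  have h2 : (volume : Measure P6) (sphere x s ×ˢ (univ : Set R3)) = 0 := by
    rw [Measure.volume_eq_prod, Measure.prod_prod, h1, zero_mul]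
  rw [ae_iff]
  refine measure_mono_null (fun z hz => ?_) h2
  simp only [ne_eq, not_not, mem_ofPred_eq] at hz
  exact ⟨by rw [mem_sphere, dist_comm, dist_eq_norm]; exact hz, mem_univ _⟩

theorem dictd_prim {φ : ℝ → ℝ} (hφ : Continuous φ) {c s : ℝ} (hs : c ≠ s) :
    HasDerivAt (fun r => ∫ t in (0 : ℝ)..max (r - c) 0, φ t) (if c ≤ s then φ (s - c) else 0) s := by
  rcases lt_or_gt_of_ne hs with h | h
  · rw [if_pos h.le]
    have h1 : HasDerivAt (fun u => ∫ t in (0 : ℝ)..u, φ t) (φ (s - c)) (s - c) :=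
      (hφ.integral_hasStrictDerivAt 0 (s - c)).hasDerivAt
    have h2 := HasDerivAt.comp_sub_const s c h1
    refine h2.congr_of_eventuallyEq ?_
    filter_upwards [Ioi_mem_nhds h] with r hr
    rw [max_eq_left (by simpa using le_of_lt hr)]
  · rw [if_neg (not_le.2 h)]
    refine (hasDerivAt_const s (0 : ℝ)).congr_of_eventuallyEq ?_
    filter_upwards [Iio_mem_nhds h] with r hr
    rw [max_eq_right (by simpa using le_of_lt hr), intervalIntegral.integral_same]

/-- the same on the Eulerian side (null set `{‖x - z.1‖ = s}`, bound `‖g‖ * sup f` on a ball, zero outside) -/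
theorem cumul_right (h : Flo f Z) (g : BoundedContinuousFunction P6 ℝ) (s : ℝ) (x : R3) :
    HasDerivAt (fun r => ∫ z : P6, ∫ t in (0 : ℝ)..max (r - ‖x - z.1‖) 0, g z * f (t, z))
      (∫ z in cone s x, g z * f (up s x z)) s := by
  obtain ⟨R, hR0, hR⟩ := h.supp (|s| + 1)
  have hcpt : IsCompact (Icc (-(|s| + 1)) (|s| + 1) ×ˢ closedBall (0 : P6) R) := isCompact_Icc.prod (isCompact_closedBall _ _)
  obtain ⟨M, hM⟩ := hcpt.exists_bound_of_continuousOn h.cf.continuousOn
  set bd : P6 → ℝ := (closedBall (0 : P6) R).indicator fun _ => ‖g‖ * max M 0 with hbd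
  have hbd0 : ∀ z, 0 ≤ bd z := fun z => indicator_nonneg (fun _ _ => by positivity) z
  have hb : ∀ z t, |t| ≤ |s| + 1 → ‖g z * f (t, z)‖ ≤ bd z := by
    intro z t ht
    by_cases hz : z ∈ closedBall (0 : P6) R
    · rw [hbd, indicator_of_mem hz, norm_mul]
      exact mul_le_mul (g.norm_coe_le_norm z) ((hM (t, z) (mk_mem_prod (abs_le.1 ht) hz)).trans (le_max_left _ _)) (norm_nonneg _)
        (norm_nonneg _)
    · rw [hR t z ht (by simpa using hz)]
      simpa using hbd0 z
  have hbi : Integrable bd := (integrable_indicator_iff measurableSet_closedBall).2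
    (integrableOn_const (measure_closedBall_lt_top).ne)
  have hφ : ∀ z : P6, Continuous fun t : ℝ => g z * f (t, z) := fun z =>
    continuous_const.mul (h.cf.comp (continuous_id.prodMk continuous_const))
  have hcF : ∀ r : ℝ, Continuous fun z : P6 => ∫ t in (0 : ℝ)..max (r - ‖x - z.1‖) 0, g z * f (t, z) := by
    intro r
    have hc : Continuous (Function.uncurry fun (z : P6) (t : ℝ) => g z * f (t, z)) :=
      (g.continuous.comp continuous_fst).mul (h.cf.comp (continuous_snd.prodMk continuous_fst))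
    exact intervalIntegral.continuous_parametric_intervalIntegral_of_continuous hc (by fun_prop)
  have hmem : ∀ (z : P6) (r : ℝ), r ∈ Ioo (s - 1) (s + 1) → max (r - ‖x - z.1‖) 0 ∈ Icc (0 : ℝ) (|s| + 1) := by
    intro z r hr
    refine ⟨le_max_right _ _, max_le ?_ (by positivity)⟩
    have := le_abs_self s
    have := norm_nonneg (x - z.1)
    linarith [hr.2]
  have hdiff : ∀ (z : P6) (a b : ℝ), a ∈ Icc (0 : ℝ) (|s| + 1) → b ∈ Icc (0 : ℝ) (|s| + 1) →
      ‖(∫ t in (0 : ℝ)..a, g z * f (t, z)) - ∫ t in (0 : ℝ)..b, g z * f (t, z)‖ ≤ bd z * |a - b| := by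
    intro z a b ha hb'
    rw [intervalIntegral.integral_interval_sub_left ((hφ z).intervalIntegrable _ _) ((hφ z).intervalIntegrable _ _)]
    refine intervalIntegral.norm_integral_le_of_norm_le_const fun t ht => hb z t ?_
    have ht' := uIoc_subset_uIcc ht
    have : t ∈ Icc (0 : ℝ) (|s| + 1) := uIcc_subset_Icc hb' ha ht'
    rw [abs_of_nonneg this.1]; exact this.2
  have hs1 : s ∈ Ioo (s - 1) (s + 1) := ⟨by linarith, by linarith⟩
  have key := hasDerivAt_integral_of_dominated_loc_of_lip (μ := (volume : Measure P6)) (𝕜 := ℝ)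
    (F := fun (r : ℝ) (z : P6) => ∫ t in (0 : ℝ)..max (r - ‖x - z.1‖) 0, g z * f (t, z))
    (F' := (cone s x).indicator fun z => g z * f (up s x z)) (x₀ := s) (bound := bd) (s := Ioo (s - 1) (s + 1))
    (Ioo_mem_nhds hs1.1 hs1.2) (Eventually.of_forall fun r => (hcF r).aestronglyMeasurable) ?_ ?_ ?_ hbi ?_
  · rw [integral_indicator (measurableSet_cone s x)] at key
    exact key.2
  · refine Integrable.mono' (hbi.mul_const (|s| + 1)) (hcF s).aestronglyMeasurable (Eventually.of_forall fun z => ?_)
    have := hdiff z _ 0 (hmem z s hs1) ⟨le_rfl, by positivity⟩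
    rw [intervalIntegral.integral_same, sub_zero, sub_zero, abs_of_nonneg (le_max_right _ _)] at this
    exact this.trans (mul_le_mul_of_nonneg_left (hmem z s hs1).2 (hbd0 z))
  · refine AEStronglyMeasurable.indicator (Continuous.aestronglyMeasurable ?_) (measurableSet_cone s x)
    exact g.continuous.mul (h.cf.comp (by unfold up; fun_prop))
  · refine Eventually.of_forall fun z => LipschitzOnWith.of_dist_le_mul fun a ha b hb' => ?_
    rw [dist_eq_norm, Real.coe_nnabs, abs_of_nonneg (hbd0 z)]
    refine (hdiff z _ _ (hmem z a ha) (hmem z b hb')).trans (mul_le_mul_of_nonneg_left ?_ (hbd0 z))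
    refine (abs_max_sub_max_le_abs _ _ _).trans (le_of_eq ?_)
    rw [Real.dist_eq]; congr 1; ring
  · filter_upwards [dictd_null s x] with z hz
    have := dictd_prim (hφ z) hz
    by_cases hc : ‖x - z.1‖ ≤ s
    · rw [if_pos hc] at this
      rw [indicator_of_mem (show z ∈ cone s x from hc)]
      exact this
    · rw [if_neg hc] at this
      rw [indicator_of_notMem (show z ∉ cone s x from hc)]
      exact this

/-- `b` is bounded below along the particles on the cone -/
theorem bb_ret_ge (h : Flo f Z) (hτ : IsRet Z τ) (s : ℝ) (x : R3) : ∃ c : ℝ, 0 < c ∧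
    ∀ᵐ z ∂(mu f).restrict (cone s x), c ≤ bb x (Z (τ s x z) z) := by
  obtain ⟨R, -, hR⟩ := h.supp s
  obtain ⟨q, -, hq, H⟩ := exists_speed R
  have h0 : ∀ᵐ z ∂mu f, f (0, z) ≠ 0 := by
    rw [mu, ae_withDensity_iff (dicta_cont h 0).measurable.ennreal_ofReal]
    exact Eventually.of_forall fun z hz e => hz (by simp [e])
  refine ⟨1 - q, by linarith, ?_⟩
  filter_upwards [ae_restrict_mem (measurableSet_cone s x), ae_restrict_of_ae h0] with z hz hf
  have h1 := (hτ.nonneg_iff h s x z).2 hz
  have h2 : ‖Z (τ s x z) z‖ ≤ R := not_lt.1 fun hlt =>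
    hf (by rw [← h.trans (τ s x z) z]; exact hR _ _ (by rw [abs_of_nonneg h1]; exact hτ.le s x z) hlt)
  linarith [bb_ge x (Z (τ s x z) z), H _ ((norm_snd_le _).trans h2)]

theorem dicte_mup (h : Flo f Z) (s : ℝ) (x : R3) : Continuous fun z : P6 => f (up s x z) := by
  refine h.cf.comp ?_
  unfold up
  fun_prop

theorem dicte_int_up (h : Flo f Z) (s : ℝ) (x : R3) : IntegrableOn (fun z => f (up s x z)) (cone s x) := by
  obtain ⟨R, -, hR⟩ := h.supp |s|
  have h1 : IntegrableOn (fun z => f (up s x z)) (closedBall (0 : P6) R) :=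
    (dicte_mup h s x).continuousOn.integrableOn_compact (isCompact_closedBall _ _)
  refine h1.of_forall_diff_eq_zero (measurableSet_cone s x) fun z hz => ?_
  have h2 : ‖x - z.1‖ ≤ s := hz.1
  have h3 : R < ‖z‖ := by simpa using hz.2
  have h4 := norm_nonneg (x - z.1)
  refine hR _ z ?_ h3
  rw [abs_of_nonneg (by linarith), abs_of_nonneg (by linarith)]
  linarith

theorem dicte_mrho (h : Flo f Z) (hτ : IsRet Z τ) (s : ℝ) (x : R3) :
    Measurable fun z => ENNReal.ofReal (bb x (Z (τ s x z) z))⁻¹ :=
  (((measurable_bb x).comp (measurable_ret h hτ s x)).inv).ennreal_ofReal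

/-- `ext_of_forall_integral_eq_of_IsFiniteMeasure`, `cumul`, `cumul_left`, `cumul_right`, `HasDerivAt.unique` -/
theorem dict_meas (h : Flo f Z) (hτ : IsRet Z τ) {s : ℝ} (hs : 0 ≤ s) (x : R3) :
    Measure.map (fun z => Z (τ s x z) z)
        (((mu f).restrict (cone s x)).withDensity fun z => ENNReal.ofReal (bb x (Z (τ s x z) z))⁻¹) =
      (volume.restrict (cone s x)).withDensity fun z => ENNReal.ofReal (f (up s x z)) := by
  haveI := finite_mu h
  have hΦ := measurable_ret h hτ s x
  have hρ := dicte_mrho h hτ s x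
  have hu : Measurable fun z : P6 => ENNReal.ofReal (f (up s x z)) := (dicte_mup h s x).measurable.ennreal_ofReal
  obtain ⟨c, hc, hb⟩ := bb_ret_ge h hτ s x
  haveI : IsFiniteMeasure (((mu f).restrict (cone s x)).withDensity fun z => ENNReal.ofReal (bb x (Z (τ s x z) z))⁻¹) := by
    refine isFiniteMeasure_withDensity_ofReal (HasFiniteIntegral.of_bounded (C := c⁻¹) ?_)
    filter_upwards [hb] with z hz
    rw [Real.norm_of_nonneg (inv_pos.2 (bb_pos _ _)).le]
    exact inv_anti₀ hc hz
  haveI : IsFiniteMeasure ((volume.restrict (cone s x)).withDensity fun z => ENNReal.ofReal (f (up s x z))) :=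
    isFiniteMeasure_withDensity_ofReal (dicte_int_up h s x).2
  refine ext_of_forall_integral_eq_of_IsFiniteMeasure fun g => ?_
  rw [integral_map hΦ.aemeasurable g.continuous.aestronglyMeasurable,
    integral_withDensity_eq_integral_toReal_smul hρ (Eventually.of_forall fun _ => ENNReal.ofReal_lt_top),
    integral_withDensity_eq_integral_toReal_smul hu (Eventually.of_forall fun _ => ENNReal.ofReal_lt_top)]
  have h1 := cumul_left h hτ g hs x
  have h2 := cumul_right h g s x
  simp only [cumul h hτ g _ x] at h1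
  have h3 := h1.unique h2
  have e1 : ∀ z, (ENNReal.ofReal (bb x (Z (τ s x z) z))⁻¹).toReal • g (Z (τ s x z) z) =
      g (Z (τ s x z) z) * (bb x (Z (τ s x z) z))⁻¹ := fun z => by
    rw [ENNReal.toReal_ofReal (inv_pos.2 (bb_pos _ _)).le, smul_eq_mul, mul_comm]
  have e2 : ∀ z, (ENNReal.ofReal (f (up s x z))).toReal • g z = g z * f (up s x z) := fun z => by
    rw [ENNReal.toReal_ofReal (h.pos _), smul_eq_mul, mul_comm]
  simp only [e1, e2]
  exact h3

theorem dict_lint (h : Flo f Z) (hτ : IsRet Z τ) {s : ℝ} (hs : 0 ≤ s) (x : R3) {g : P6 → ℝ≥0∞} (hg : Measurable g) :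
    ∫⁻ z in cone s x, g (Z (τ s x z) z) * ENNReal.ofReal (bb x (Z (τ s x z) z))⁻¹ ∂mu f =
      ∫⁻ z in cone s x, g z * ENNReal.ofReal (f (up s x z)) := by
  have hΦ := measurable_ret h hτ s x
  have hρ := dicte_mrho h hτ s x
  have hu : Measurable fun z : P6 => ENNReal.ofReal (f (up s x z)) := (dicte_mup h s x).measurable.ennreal_ofReal
  have h1 := congrArg (fun m : Measure P6 => ∫⁻ z, g z ∂m) (dict_meas h hτ hs x)
  beta_reduce at h1
  rw [lintegral_map hg hΦ, lintegral_withDensity_eq_lintegral_mul _ hρ (g := fun z => g (Z (τ s x z) z)) (hg.comp hΦ),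
    lintegral_withDensity_eq_lintegral_mul _ hu hg] at h1
  simpa only [Pi.mul_apply, Function.comp_apply, mul_comm] using h1

/-- Bochner form (`integrable_map_measure`, `integrable_withDensity_iff_integrable_smul'`, `integral_withDensity_eq_integral_toReal_smul`
applied to `bb x z • g z`) -/
theorem dict_int (h : Flo f Z) (hτ : IsRet Z τ) {s : ℝ} (hs : 0 ≤ s) (x : R3) {g : P6 → R3} (hg : Measurable g)
    (hi : IntegrableOn (fun z => (bb x z * f (up s x z)) • g z) (cone s x)) :
    IntegrableOn (fun z => g (Z (τ s x z) z)) (cone s x) (mu f) ∧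
      ∫ z in cone s x, g (Z (τ s x z) z) ∂mu f = ∫ z in cone s x, (bb x z * f (up s x z)) • g z := by
  have hΦ := measurable_ret h hτ s x
  have hρ := dicte_mrho h hτ s x
  have hu : Measurable fun z : P6 => ENNReal.ofReal (f (up s x z)) := (dicte_mup h s x).measurable.ennreal_ofReal
  have hG : Measurable fun z => bb x z • g z := (measurable_bb x).smul hg
  have hm := dict_meas h hτ hs x
  have e1 : ∀ z, (ENNReal.ofReal (f (up s x z))).toReal • bb x z • g z = (bb x z * f (up s x z)) • g z := fun z => by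
    rw [ENNReal.toReal_ofReal (h.pos _), smul_smul, mul_comm]
  have e2 : ∀ z, (ENNReal.ofReal (bb x (Z (τ s x z) z))⁻¹).toReal • bb x (Z (τ s x z) z) • g (Z (τ s x z) z) =
      g (Z (τ s x z) z) := fun z => by
    rw [ENNReal.toReal_ofReal (inv_pos.2 (bb_pos _ _)).le, smul_smul, inv_mul_cancel₀ (bb_pos _ _).ne', one_smul]
  have i1 : Integrable (fun z => bb x z • g z)
      ((volume.restrict (cone s x)).withDensity fun z => ENNReal.ofReal (f (up s x z))) := by
    rw [integrable_withDensity_iff_integrable_smul' hu (Eventually.of_forall fun _ => ENNReal.ofReal_lt_top)]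
    simp only [e1]
    exact hi
  have i2 := i1
  rw [← hm, integrable_map_measure hG.aestronglyMeasurable hΦ.aemeasurable,
    integrable_withDensity_iff_integrable_smul' hρ (Eventually.of_forall fun _ => ENNReal.ofReal_lt_top)] at i2
  simp only [Function.comp_apply, e2] at i2
  refine ⟨i2, ?_⟩
  have h1 := congrArg (fun m : Measure P6 => ∫ z, bb x z • g z ∂m) hm
  beta_reduce at h1
  rw [integral_map hΦ.aemeasurable hG.aestronglyMeasurable,
    integral_withDensity_eq_integral_toReal_smul hρ (Eventually.of_forall fun _ => ENNReal.ofReal_lt_top),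
    integral_withDensity_eq_integral_toReal_smul hu (Eventually.of_forall fun _ => ENNReal.ofReal_lt_top)] at h1
  simpa only [e1, e2] using h1

end Crest.Agent.R106.Rep
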