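import Crest.Agent.R106.Rep.Basic

/-! Row 106, frame block: the explicit Glassey-Strauss identity in polar coordinates. -/

set_option autoImplicit false

noncomputable section

namespace Crest.Agent.R106.Rep

open MeasureTheory Metric Set Filter Topology
open scoped ContDiff InnerProductSpace ENNReal
open Crest.AnalysisR.VecCalc3 Crest.AnalysisR.PDE.RVM Crest.Agent.R106.Wave

variable {f : ℝ × P6 → ℝ} {F : ℝ × P6 → R3} {α : R3 → R3}

/-- splitting of the direction: `(α·u, α) = (A·w) (-1, w) + (0, A - (A·w) w) + k (1, u)` (linearity of `fderiv`, `den_pos`) -/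
theorem gs_split (α : R3 → R3) (f : ℝ × P6 → ℝ) {w : R3} (hw : ‖w‖ = 1) (v : R3) (p : ℝ × P6) :
    D (⟪α v, relVel v⟫_ℝ, ((α v, 0) : P6)) f p =
      ⟪AA α w v, w⟫_ℝ * D ((-1 : ℝ), ((w, 0) : P6)) f p +
        D ((0 : ℝ), ((AA α w v - ⟪AA α w v, w⟫_ℝ • w, 0) : P6)) f p + kk α w v * D ((1 : ℝ), ((relVel v, 0) : P6)) f p := by
  have hb := (den_pos hw.le v).ne'
  have key : ((⟪α v, relVel v⟫_ℝ, ((α v, 0) : P6)) : ℝ × P6) =
      ⟪AA α w v, w⟫_ℝ • (((-1 : ℝ), ((w, 0) : P6)) : ℝ × P6) +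
        ((0 : ℝ), ((AA α w v - ⟪AA α w v, w⟫_ℝ • w, 0) : P6)) + kk α w v • (((1 : ℝ), ((relVel v, 0) : P6)) : ℝ × P6) := by
    refine Prod.ext ?_ (Prod.ext ?_ ?_)
    · simp only [Prod.fst_add, Prod.smul_fst, smul_eq_mul, AA, inner_sub_left, inner_smul_left, kk, inner_add_right,
        conj_trivial]
      field_simp
      ring
    · simp only [Prod.fst_add, Prod.snd_add, Prod.smul_fst, Prod.smul_snd]
      rw [add_sub_cancel]
      simp [AA]
    · simp
  rw [key, D_add_left, D_add_left, D_smul_left, D_smul_left, smul_eq_mul, smul_eq_mul]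

/-- integration by parts in `v`: `vla` gives `D (1, (u, 0)) f = - D (0, (0, F)) f`; `U.int_fderiv_zero` for `k * F i * f` in the direction `e3 i`, `div` -/
theorem gs_v (h : Den f F) {k : R3 → ℝ} (hk : ContDiff ℝ 1 k) (t : ℝ) (y : R3) :
    ∫ v, k v * D ((1 : ℝ), ((relVel v, 0) : P6)) f (t, (y, v)) = ∫ v, D (F (t, (y, v))) k v * f (t, (y, v)) := by
  obtain ⟨R, -, hR⟩ := h.supp |t|
  have hι : ContDiff ℝ ∞ fun v : R3 => ((t, (y, v)) : ℝ × P6) := contDiff_const.prodMk (contDiff_const.prodMk contDiff_id)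
  have hg : ContDiff ℝ 1 fun v : R3 => f (t, (y, v)) := (h.hf.comp hι).of_le (by simp)
  have hF : ContDiff ℝ 1 fun v : R3 => F (t, (y, v)) := (h.hF.comp hι).of_le (by simp)
  have hFi : ∀ i : Fin 3, ContDiff ℝ 1 fun v : R3 => F (t, (y, v)) i := fun i => contDiff_euclidean.1 hF i
  have hc : HasCompactSupport fun v : R3 => f (t, (y, v)) :=
    HasCompactSupport.intro (isCompact_closedBall 0 R) fun v hv => hR t _ le_rfl
      ((by simpa using hv : R < ‖v‖).trans_le (norm_snd_le ((y, v) : P6)))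
  have hG : ∀ i : Fin 3, ContDiff ℝ 1 fun v : R3 => (k v * F (t, (y, v)) i) * f (t, (y, v)) := fun i =>
    (hk.mul (hFi i)).mul hg
  have hGc : ∀ i : Fin 3, HasCompactSupport fun v : R3 => (k v * F (t, (y, v)) i) * f (t, (y, v)) := fun i =>
    hc.mul_left
  have key : ∀ v : R3, k v * D ((1 : ℝ), ((relVel v, 0) : P6)) f (t, (y, v)) = D (F (t, (y, v))) k v * f (t, (y, v)) -
      ∑ i : Fin 3, D (e3 i) (fun v : R3 => (k v * F (t, (y, v)) i) * f (t, (y, v))) v := fun v => by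
    have dk := hk.differentiable one_ne_zero v
    have dg := hg.differentiable one_ne_zero v
    have dF := fun i => (hFi i).differentiable one_ne_zero v
    have h1 := h.vla (t, (y, v))
    have h2 : D (F (t, (y, v))) (fun v : R3 => f (t, (y, v))) v =
        D ((0 : ℝ), ((0, F (t, (y, v))) : P6)) f (t, (y, v)) := by
      have hd : HasFDerivAt (fun v : R3 => ((t, (y, v)) : ℝ × P6))
          ((0 : R3 →L[ℝ] ℝ).prod ((0 : R3 →L[ℝ] R3).prod (ContinuousLinearMap.id ℝ R3))) v :=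
        (hasFDerivAt_const t v).prodMk ((hasFDerivAt_const y v).prodMk (hasFDerivAt_id v))
      rw [D_comp (h.hf.differentiable (by simp) _) hd.differentiableAt, D_apply _ (fun v : R3 => ((t, (y, v)) : ℝ × P6)),
        hd.fderiv]
      rfl
    have h3 : (((1 : ℝ), ((relVel v, F (t, (y, v))) : P6)) : ℝ × P6) =
        ((1 : ℝ), ((relVel v, 0) : P6)) + ((0 : ℝ), ((0, F (t, (y, v))) : P6)) := by simp
    rw [h3, D_add_left, ← h2, D_eq_sum] at h1
    have h4 := h.div t y v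
    have h5 : ∀ i : Fin 3, D (e3 i) (fun v : R3 => (k v * F (t, (y, v)) i) * f (t, (y, v))) v =
        (k v * F (t, (y, v)) i) * D (e3 i) (fun v : R3 => f (t, (y, v))) v +
          (k v * D (e3 i) (fun v : R3 => F (t, (y, v)) i) v + D (e3 i) k v * F (t, (y, v)) i) * f (t, (y, v)) := fun i => by
      have a1 := D_smul (dk.mul (dF i)) dg (e3 i)
      have a2 := D_smul dk (dF i) (e3 i)
      simp only [smul_eq_mul, Pi.mul_apply] at a1 a2
      rw [← a2]
      exact a1
    rw [D_eq_sum (F (t, (y, v))) k]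
    simp only [h5, Fin.sum_univ_three, smul_eq_mul] at h1 h4 ⊢
    linear_combination k v * h1 + k v * f (t, (y, v)) * h4
  have i1 : Integrable fun v : R3 => D (F (t, (y, v))) k v * f (t, (y, v)) :=
    (((hk.continuous_fderiv one_ne_zero).clm_apply hF.continuous).mul hg.continuous).integrable_of_hasCompactSupport
      hc.mul_left
  have i2 : ∀ i : Fin 3, Integrable fun v => D (e3 i) (fun v : R3 => (k v * F (t, (y, v)) i) * f (t, (y, v))) v := fun i =>
    (((hG i).continuous_fderiv one_ne_zero).clm_apply continuous_const).integrable_of_hasCompactSupport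
      ((hGc i).fderiv_apply ℝ (e3 i))
  simp only [key]
  have i3 : ∀ i : Fin 3, ∫ v, D (e3 i) (fun v : R3 => (k v * F (t, (y, v)) i) * f (t, (y, v))) v = 0 := fun i =>
    U.int_fderiv_zero volume (hG i) (hGc i) (e3 i)
  rw [integral_sub i1 (integrable_finsetSum _ fun i _ => i2 i), integral_finsetSum _ fun i _ => i2 i,
    Finset.sum_eq_zero fun i _ => i3 i, sub_zero]

theorem gsa_D_kk (α : R3 → R3) {w : R3} (hw : ‖w‖ = 1) (v : R3) :
    HasFDerivAt (fun w' => kk α w' v) ((1 + ⟪relVel v, w⟫_ℝ)⁻¹ • (innerSL ℝ (α v) - kk α w v • innerSL ℝ (relVel v))) w := by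
  have hb := (den_pos hw.le v).ne'
  have h1 : HasFDerivAt (fun w' : R3 => ⟪α v, relVel v + w'⟫_ℝ) (innerSL ℝ (α v)) w := by
    have := ((innerSL ℝ (α v)).hasFDerivAt (x := w)).const_add ⟪α v, relVel v⟫_ℝ
    simpa only [inner_add_right, innerSL_apply_apply] using this
  have h2 : HasFDerivAt (fun w' : R3 => 1 + ⟪relVel v, w'⟫_ℝ) (innerSL ℝ (relVel v)) w :=
    ((innerSL ℝ (relVel v)).hasFDerivAt (x := w)).const_add 1
  have h3 := h1.mul ((hasDerivAt_inv hb).comp_hasFDerivAt w h2)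
  have h4 : (fun w' => kk α w' v) = (fun w' : R3 => ⟪α v, relVel v + w'⟫_ℝ) *
      ((fun y : ℝ => y⁻¹) ∘ fun w' : R3 => 1 + ⟪relVel v, w'⟫_ℝ) := by
    funext w'; simp only [kk, div_eq_mul_inv, Pi.mul_apply, Function.comp_apply]
  rw [h4]
  refine h3.congr_fderiv ?_
  ext e
  simp only [add_apply, smul_apply, sub_apply, innerSL_apply_apply,
    smul_eq_mul, Function.comp_apply, kk]
  field_simp
  ring

/-- the algebraic miracle `A·w - div_T A = k (1 - |u|²) / b` (`D e (fun w => kk α w v) w = ⟪α v, e⟫ / b - k ⟪u, e⟫ / b`, `norm_relVel_sq`) -/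
theorem gs_alg (α : R3 → R3) {w : R3} (hw : ‖w‖ = 1) (v : R3) :
    ⟪AA α w v, w⟫_ℝ - ∑ j : Fin 3, D (e3 j - w j • w) (fun w' => AA α w' v j) w =
      kk α w v * (1 + ‖v‖ ^ 2)⁻¹ / (1 + ⟪relVel v, w⟫_ℝ) := by
  have hb := (den_pos hw.le v).ne'
  set L := (1 + ⟪relVel v, w⟫_ℝ)⁻¹ • (innerSL ℝ (α v) - kk α w v • innerSL ℝ (relVel v)) with hL
  have h1 : ∀ (j : Fin 3) (e : R3), D e (fun w' => AA α w' v j) w = -(L e * relVel v j) := by
    intro j e
    have h := ((gsa_D_kk α hw v).mul_const (relVel v j)).const_sub (α v j)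
    have h4 : (fun w' => AA α w' v j) = fun w' => α v j - kk α w' v * relVel v j := by
      funext w'; simp [AA]
    rw [D_apply, h4, h.fderiv]
    simp only [neg_apply, smul_apply, smul_eq_mul, ← hL]
    ring
  have h2 : ∑ j : Fin 3, D (e3 j - w j • w) (fun w' => AA α w' v j) w = -L (relVel v - ⟪relVel v, w⟫_ℝ • w) := by
    have h3 : relVel v - ⟪relVel v, w⟫_ℝ • w = ∑ j : Fin 3, relVel v j • (e3 j - w j • w) := by
      simp only [smul_sub, Finset.sum_sub_distrib, sum_e3, smul_smul, ← Finset.sum_smul]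
      congr 2
      simp [PiLp.inner_apply, mul_comm]
    rw [h3, map_sum, ← Finset.sum_neg_distrib]
    refine Finset.sum_congr rfl fun j _ => ?_
    rw [h1, map_smul, smul_eq_mul, mul_comm]
  rw [h2, ← norm_relVel_sq, ← real_inner_self_eq_norm_sq, hL]
  simp only [smul_apply, sub_apply, innerSL_apply_apply, smul_eq_mul, AA,
    inner_sub_left, inner_sub_right, inner_smul_left, inner_smul_right, conj_trivial, kk, inner_add_right]
  field_simp
  ring

theorem gsc_D (hf : ContDiff ℝ ∞ f) (t r : ℝ) (x v w e : R3) :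
    D e (fun w' : R3 => f (t, (x + r • w', v))) w = r * D ((0 : ℝ), ((e, 0) : P6)) f (t, (x + r • w, v)) := by
  have h0 : HasFDerivAt (fun w' : R3 => x + r • w') (r • ContinuousLinearMap.id ℝ R3) w :=
    ((hasFDerivAt_id (𝕜 := ℝ) w).fun_const_smul r).const_add x
  have h1 := (hasFDerivAt_const t w).prodMk (h0.prodMk (hasFDerivAt_const v w))
  rw [D_comp (g := f) (φ := fun w' : R3 => ((t, (x + r • w', v)) : ℝ × P6)) (hf.differentiable (by simp) _) h1.differentiableAt,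
    ← smul_eq_mul, ← D_smul_left]
  congr 1
  rw [D_apply, h1.fderiv]
  simp

/-- integration by parts on the sphere: `int_D_tan` for `w ↦ AA α w v j * f (t, (x + r • w, v))`, summed over `j`, and `gs_alg` -/
theorem gs_w (hf : ContDiff ℝ ∞ f) (hα : ContDiff ℝ ∞ α) (t r : ℝ) (x v : R3) :
    ∫ w, r * D ((0 : ℝ), ((AA α w v - ⟪AA α w v, w⟫_ℝ • w, 0) : P6)) f (t, (x + r • w, v)) ∂sg =
      ∫ w, (⟪AA α w v, w⟫_ℝ + kk α w v * (1 + ‖v‖ ^ 2)⁻¹ / (1 + ⟪relVel v, w⟫_ℝ)) * f (t, (x + r • w, v)) ∂sg := by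
  have ck : ∀ w : R3, ‖w‖ = 1 → ContDiffAt ℝ 1 (fun w' => kk α w' v) w := fun w hw =>
    ((contDiffAt_kk hα hw.le v).comp w (contDiffAt_id.prodMk contDiffAt_const)).of_le (by simp)
  have cA : ∀ (j : Fin 3) (w : R3), ‖w‖ = 1 → ContDiffAt ℝ 1 (fun w' => AA α w' v j) w := fun j w hw => by
    have e : (fun w' => AA α w' v j) = fun w' => α v j - kk α w' v * relVel v j := by
      funext w'
      simp [AA]
    rw [e]
    exact contDiffAt_const.sub ((ck w hw).mul contDiffAt_const)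
  have cφ : ContDiff ℝ 1 fun w' : R3 => f (t, (x + r • w', v)) :=
    (hf.of_le (by simp)).comp (contDiff_const.prodMk ((contDiff_const.add (contDiff_id.const_smul r)).prodMk contDiff_const))
  have ch : ∀ (j : Fin 3) (w : R3), ‖w‖ = 1 → ContDiffAt ℝ 1 (fun w' => AA α w' v j • f (t, (x + r • w', v))) w := fun j w hw =>
    (cA j w hw).smul cφ.contDiffAt
  have cj : ∀ j : Fin 3, Continuous fun w : R3 => w j := fun j => by fun_prop
  have i1 : ∀ j : Fin 3, Integrable (fun w => D (e3 j - w j • w) (fun w' => AA α w' v j • f (t, (x + r • w', v))) w) sg := fun j =>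
    integrable_sg ((contOn_fderiv (ch j)).clm_apply (continuous_const.sub ((cj j).smul continuous_id)).continuousOn)
  have i2 : ∀ j : Fin 3, Integrable (fun w : R3 => (2 * w j) • (AA α w v j • f (t, (x + r • w, v)))) sg := fun j =>
    integrable_sg ((continuous_const.mul (cj j)).continuousOn.smul fun w hw =>
      (ch j w (mem_sphere_zero_iff_norm.1 hw)).continuousAt.continuousWithinAt)
  have ck' : ContinuousOn (fun w' => kk α w' v) (sphere 0 1) := fun w hw =>
    (ck w (mem_sphere_zero_iff_norm.1 hw)).continuousAt.continuousWithinAt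
  have i3 : Integrable (fun w : R3 => (⟪AA α w v, w⟫_ℝ + kk α w v * (1 + ‖v‖ ^ 2)⁻¹ / (1 + ⟪relVel v, w⟫_ℝ)) *
      f (t, (x + r • w, v))) sg := by
    refine integrable_sg (ContinuousOn.mul (ContinuousOn.add ?_ ?_) cφ.continuous.continuousOn)
    · exact (continuousOn_const.sub (ck'.smul continuousOn_const)).inner continuousOn_id
    · exact (ck'.mul continuousOn_const).div (by fun_prop) fun w hw => (den_pos (mem_sphere_zero_iff_norm.1 hw).le v).ne'
  have key : ∀ w : R3, ‖w‖ = 1 → r * D ((0 : ℝ), ((AA α w v - ⟪AA α w v, w⟫_ℝ • w, 0) : P6)) f (t, (x + r • w, v)) =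
      (⟪AA α w v, w⟫_ℝ + kk α w v * (1 + ‖v‖ ^ 2)⁻¹ / (1 + ⟪relVel v, w⟫_ℝ)) * f (t, (x + r • w, v)) +
        ∑ j : Fin 3, (D (e3 j - w j • w) (fun w' => AA α w' v j • f (t, (x + r • w', v))) w -
          (2 * w j) • (AA α w v j • f (t, (x + r • w, v)))) := by
    intro w hw
    have e0 : ⟪AA α w v, w⟫_ℝ = ∑ j : Fin 3, AA α w v j * w j := by
      simp [PiLp.inner_apply, mul_comm]
    have e1 : AA α w v - ⟪AA α w v, w⟫_ℝ • w = ∑ j : Fin 3, AA α w v j • (e3 j - w j • w) := by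
      simp only [smul_sub, Finset.sum_sub_distrib, sum_e3, smul_smul, ← Finset.sum_smul, e0]
    have e2 : ∀ j : Fin 3, D (e3 j - w j • w) (fun w' => AA α w' v j • f (t, (x + r • w', v))) w =
        AA α w v j * D (e3 j - w j • w) (fun w' : R3 => f (t, (x + r • w', v))) w +
          D (e3 j - w j • w) (fun w' => AA α w' v j) w * f (t, (x + r • w, v)) := fun j =>
      D_smul ((cA j w hw).differentiableAt one_ne_zero) (cφ.differentiable one_ne_zero w) _
    rw [← gsc_D hf, ← gs_alg α hw v, e1, D_apply, map_sum]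
    simp only [e2]
    simp only [map_smul, e0, smul_eq_mul, Fin.sum_univ_three, ← D_apply]
    ring
  have i4 : ∀ j : Fin 3, Integrable (fun w => D (e3 j - w j • w) (fun w' => AA α w' v j • f (t, (x + r • w', v))) w -
      (2 * w j) • (AA α w v j • f (t, (x + r • w, v)))) sg := fun j => (i1 j).sub (i2 j)
  rw [integral_congr_ae (sg_ae_norm.mono key), integral_add i3 (integrable_finsetSum _ fun j _ => i4 j),
    integral_finsetSum _ fun j _ => i4 j, add_eq_left]
  refine Finset.sum_eq_zero fun j _ => ?_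
  rw [integral_sub (i1 j) (i2 j), int_D_tan (ch j) j, sub_self]

/-- integration by parts in `r` (fundamental theorem of calculus for `r * f (s - r, (x + r • w, v))`) -/
theorem gs_r (hf : ContDiff ℝ ∞ f) (s : ℝ) (x w v : R3) :
    ∫ r in (0 : ℝ)..s, (r * D ((-1 : ℝ), ((w, 0) : P6)) f (s - r, (x + r • w, v)) + f (s - r, (x + r • w, v))) =
      s * f (0, (x + s • w, v)) := by
  have hc : Continuous fun r : ℝ => ((s - r, (x + r • w, v)) : ℝ × P6) := by fun_prop
  have hd : ∀ r : ℝ, HasDerivAt (fun r : ℝ => r * f (s - r, (x + r • w, v)))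
      (r * D ((-1 : ℝ), ((w, 0) : P6)) f (s - r, (x + r • w, v)) + f (s - r, (x + r • w, v))) r := by
    intro r
    have h1 : HasDerivAt (fun r : ℝ => ((s - r, (x + r • w, v)) : ℝ × P6)) ((-1 : ℝ), ((w, 0) : P6)) r := by
      refine ((hasDerivAt_id r).const_sub s).prodMk (HasDerivAt.prodMk ?_ (hasDerivAt_const _ _))
      simpa using ((hasDerivAt_id r).smul_const w).const_add x
    have h2 := ((hf.differentiable (by simp)) _).hasFDerivAt.comp_hasDerivAt r h1
    have h3 := (hasDerivAt_id r).mul h2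
    refine h3.congr_deriv ?_
    simp only [id, Function.comp_apply, one_mul, D_apply]
    ring
  rw [intervalIntegral.integral_eq_sub_of_hasDerivAt (fun r _ => hd r)
    (((continuous_id.mul ((smooth_D hf _).continuous.comp hc)).add (hf.continuous.comp hc)).intervalIntegrable _ _)]
  simp

/-- integrability on the product of `[0, s]`, the sphere and momentum space -/
theorem gs_int {H : ℝ × R3 × R3 → ℝ} {s R : ℝ} (hH : ContinuousOn H (univ ×ˢ sphere 0 1 ×ˢ univ))
    (h0 : ∀ r ∈ Icc 0 s, ∀ w v : R3, R < ‖v‖ → H (r, w, v) = 0) :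
    Integrable H ((volume.restrict (Ioc 0 s)).prod (sg.prod volume)) := by
  have hK : IsCompact (Icc (0 : ℝ) s ×ˢ sphere (0 : R3) 1 ×ˢ closedBall (0 : R3) R) :=
    isCompact_Icc.prod (cpt_sph.prod (isCompact_closedBall 0 R))
  have h1 : IntegrableOn H (Icc (0 : ℝ) s ×ˢ sphere (0 : R3) 1 ×ˢ closedBall (0 : R3) R)
      ((volume.restrict (Ioc 0 s)).prod (sg.prod volume)) :=
    (hH.mono (prod_mono (subset_univ _) (prod_mono subset_rfl (subset_univ _)))).integrableOn_compact hK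
  refine h1.integrable_of_ae_notMem_eq_zero ?_
  have a1 : ∀ᵐ p ∂((volume.restrict (Ioc (0 : ℝ) s)).prod (sg.prod (volume : Measure R3))), p.1 ∈ Ioc 0 s :=
    Measure.quasiMeasurePreserving_fst.ae (ae_restrict_mem measurableSet_Ioc)
  have a2 : ∀ᵐ p ∂((volume.restrict (Ioc (0 : ℝ) s)).prod (sg.prod (volume : Measure R3))), p.2.1 ∈ sphere (0 : R3) 1 :=
    Measure.quasiMeasurePreserving_snd.ae (Measure.quasiMeasurePreserving_fst.ae sg_ae_mem)
  filter_upwards [a1, a2] with p h1 h2 hp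
  refine h0 p.1 (Ioc_subset_Icc_self h1) p.2.1 p.2.2 (not_le.1 fun hv => hp ⟨Ioc_subset_Icc_self h1, h2, ?_⟩)
  simpa using hv

/-- derivatives of `f` vanish where `f` vanishes near by -/
theorem D_supp (h : Den f F) (T : ℝ) : ∃ R : ℝ, 0 ≤ R ∧ ∀ (t : ℝ) (z : P6), |t| ≤ T → R < ‖z‖ →
    f (t, z) = 0 ∧ ∀ e, D e f (t, z) = 0 := by
  obtain ⟨R, hR0, hR⟩ := h.supp (T + 1)
  refine ⟨R, hR0, fun t z ht hz => ⟨hR t z (by linarith) hz, fun e => ?_⟩⟩
  have hO : IsOpen {p : ℝ × P6 | |p.1| < T + 1 ∧ R < ‖p.2‖} :=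
    (isOpen_lt continuous_fst.abs continuous_const).inter (isOpen_lt continuous_const continuous_snd.norm)
  have : f =ᶠ[𝓝 (t, z)] fun _ => 0 := by
    filter_upwards [hO.mem_nhds (⟨by dsimp only; linarith, hz⟩ : (t, z) ∈ {p : ℝ × P6 | |p.1| < T + 1 ∧ R < ‖p.2‖})]
      with p hp using hR p.1 p.2 hp.1.le hp.2
  rw [D_apply, this.fderiv_eq]
  simp

section gsd
variable {X Y Z : Type} [MeasurableSpace X] [MeasurableSpace Y] [MeasurableSpace Z] {μ : Measure X} {ν : Measure Y}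
  {κ : Measure Z} [SFinite μ] [SFinite ν] [SFinite κ] {H : X × Y × Z → ℝ}

theorem gsd_tri1 (hH : Integrable H (μ.prod (ν.prod κ))) :
    ∫ p, H p ∂(μ.prod (ν.prod κ)) = ∫ r, ∫ w, ∫ v, H (r, w, v) ∂κ ∂ν ∂μ := by
  rw [integral_prod _ hH]
  exact integral_congr_ae (hH.prod_right_ae.mono fun r hr => integral_prod _ hr)

theorem gsd_tri2 (hH : Integrable H (μ.prod (ν.prod κ))) :
    ∫ p, H p ∂(μ.prod (ν.prod κ)) = ∫ r, ∫ v, ∫ w, H (r, w, v) ∂ν ∂κ ∂μ := by
  rw [integral_prod _ hH]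
  exact integral_congr_ae (hH.prod_right_ae.mono fun r hr => integral_prod_symm _ hr)

theorem gsd_tri3 (hH : Integrable H (μ.prod (ν.prod κ))) :
    ∫ p, H p ∂(μ.prod (ν.prod κ)) = ∫ w, ∫ v, ∫ r, H (r, w, v) ∂μ ∂κ ∂ν := by
  rw [integral_prod_symm _ hH]
  exact integral_prod _ hH.integral_prod_right

end gsd

theorem gsd_kk (hα : ContDiff ℝ ∞ α) :
    ContinuousOn (fun q : ℝ × R3 × R3 => kk α q.2.1 q.2.2) (univ ×ˢ sphere 0 1 ×ˢ univ) := by
  intro q hq
  have hw : ‖q.2.1‖ ≤ 1 := (mem_sphere_zero_iff_norm.1 hq.2.1).le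
  exact (ContinuousAt.comp (f := fun q : ℝ × R3 × R3 => q.2) (contDiffAt_kk hα hw q.2.2).continuousAt
    continuous_snd.continuousAt).continuousWithinAt

theorem gsd_dkk (hα : ContDiff ℝ ∞ α) :
    ContinuousOn (fun q : ℝ × R3 × R3 => fderiv ℝ (kk α q.2.1) q.2.2) (univ ×ˢ sphere 0 1 ×ˢ univ) := by
  intro q hq
  have hw : ‖q.2.1‖ ≤ 1 := (mem_sphere_zero_iff_norm.1 hq.2.1).le
  have h1 : ContDiffAt ℝ ∞ (Function.uncurry fun (q : ℝ × R3 × R3) (v : R3) => kk α q.2.1 v) (q, q.2.2) :=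
    ContDiffAt.comp (g := fun p : R3 × R3 => kk α p.1 p.2) (f := fun p : (ℝ × R3 × R3) × R3 => (p.1.2.1, p.2)) (q, q.2.2)
      (contDiffAt_kk hα hw q.2.2) (by fun_prop)
  have h2 := h1.fderiv (m := 0) (g := fun q : ℝ × R3 × R3 => q.2.2) (by fun_prop) (by simp)
  exact h2.continuousAt.continuousWithinAt

theorem gsd_den : ContinuousOn (fun q : ℝ × R3 × R3 => (1 + ⟪relVel q.2.2, q.2.1⟫_ℝ)⁻¹) (univ ×ˢ sphere 0 1 ×ˢ univ) := by
  have hu := smooth_relVel.continuous
  refine ContinuousOn.inv₀ (Continuous.continuousOn (by fun_prop)) fun q hq => ?_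
  exact (den_pos (mem_sphere_zero_iff_norm.1 hq.2.1).le _).ne'

/-- **Glassey-Strauss.** `gs_split` under the integrals; Fubini (`gs_int`, `integral_integral_swap`, `integral_prod`) to apply `gs_r` for fixed `(w, v)`,
`gs_w` for fixed `(r, v)`, `gs_v` for fixed `(r, w)`. -/
theorem gs_polar (h : Den f F) (hα : ContDiff ℝ ∞ α) {s : ℝ} (hs : 0 ≤ s) (x : R3) :
    S (src α f) (s, x) = bdry α f s x + pol α f F s x := by
  obtain ⟨R, -, hR⟩ := D_supp h s
  have hu := smooth_relVel.continuous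
  have hαc := hα.continuous
  have hfc := h.hf.continuous
  have hFc := h.hF.continuous
  have hdf : Continuous (fderiv ℝ f) := h.hf.continuous_fderiv (by simp)
  have hk := gsd_kk hα
  have hdk := gsd_dkk hα
  have hden := gsd_den
  set P : ℝ × R3 × R3 → ℝ × P6 := fun q => (s - q.1, (x + q.1 • q.2.1, q.2.2)) with hP
  have hPc : Continuous P := by rw [hP]; fun_prop
  have hA : ContinuousOn (fun q : ℝ × R3 × R3 => AA α q.2.1 q.2.2) (univ ×ˢ sphere 0 1 ×ˢ univ) :=
    ContinuousOn.sub (Continuous.continuousOn (by fun_prop)) (hk.smul (Continuous.continuousOn (by fun_prop)))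
  have hw : ContinuousOn (fun q : ℝ × R3 × R3 => q.2.1) (univ ×ˢ sphere 0 1 ×ˢ univ) := Continuous.continuousOn (by fun_prop)
  have hr : ContinuousOn (fun q : ℝ × R3 × R3 => q.1) (univ ×ˢ sphere 0 1 ×ˢ univ) := Continuous.continuousOn (by fun_prop)
  have hAw := hA.inner (𝕜 := ℝ) hw
  have hfP : ContinuousOn (fun q => f (P q)) (univ ×ˢ sphere 0 1 ×ˢ univ) := (hfc.comp hPc).continuousOn
  have hD : ∀ {e : ℝ × R3 × R3 → ℝ × P6}, ContinuousOn e (univ ×ˢ sphere 0 1 ×ˢ univ) →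
      ContinuousOn (fun q => D (e q) f (P q)) (univ ×ˢ sphere 0 1 ×ˢ univ) := fun he =>
    (hdf.comp hPc).continuousOn.clm_apply he
  have hc : ContinuousOn (fun q : ℝ × R3 × R3 => kk α q.2.1 q.2.2 * (1 + ‖q.2.2‖ ^ 2)⁻¹ / (1 + ⟪relVel q.2.2, q.2.1⟫_ℝ))
      (univ ×ˢ sphere 0 1 ×ˢ univ) := by
    simp only [div_eq_mul_inv]
    exact (hk.mul (Continuous.continuousOn (Continuous.inv₀ (by fun_prop) fun q => by positivity))).mul hden
  have hz : ∀ r ∈ Icc 0 s, ∀ w v : R3, R < ‖v‖ → f (P (r, w, v)) = 0 ∧ ∀ e, D e f (P (r, w, v)) = 0 := fun r hr w v hv =>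
    hR _ _ (abs_le.2 ⟨by linarith [hr.2], by linarith [hr.1]⟩) (hv.trans_le (norm_snd_le ((x + r • w, v) : P6)))
  have i1 := gs_int (s := s) (R := R) (H := fun q => ⟪AA α q.2.1 q.2.2, q.2.1⟫_ℝ *
      (q.1 * D ((-1 : ℝ), ((q.2.1, 0) : P6)) f (P q) + f (P q)))
    (hAw.mul ((hr.mul (hD (Continuous.continuousOn (by fun_prop)))).add hfP))
    (fun r hr w v hv => by simp [(hz r hr w v hv).1, (hz r hr w v hv).2])
  have i2 := gs_int (s := s) (R := R) (H := fun q => q.1 *
      D ((0 : ℝ), ((AA α q.2.1 q.2.2 - ⟪AA α q.2.1 q.2.2, q.2.1⟫_ℝ • q.2.1, 0) : P6)) f (P q))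
    (hr.mul (hD (continuousOn_const.prodMk ((hA.sub (hAw.smul hw)).prodMk continuousOn_const))))
    (fun r hr w v hv => by simp [(hz r hr w v hv).2])
  have i2' := gs_int (s := s) (R := R) (H := fun q => (⟪AA α q.2.1 q.2.2, q.2.1⟫_ℝ +
      kk α q.2.1 q.2.2 * (1 + ‖q.2.2‖ ^ 2)⁻¹ / (1 + ⟪relVel q.2.2, q.2.1⟫_ℝ)) * f (P q))
    ((hAw.add hc).mul hfP) (fun r hr w v hv => by simp [(hz r hr w v hv).1])
  have i3 := gs_int (s := s) (R := R) (H := fun q => q.1 * (kk α q.2.1 q.2.2 *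
      D ((1 : ℝ), ((relVel q.2.2, 0) : P6)) f (P q)))
    (hr.mul (hk.mul (hD (Continuous.continuousOn (by fun_prop))))) (fun r hr w v hv => by simp [(hz r hr w v hv).2])
  have i3' := gs_int (s := s) (R := R) (H := fun q => q.1 * (D (F (P q)) (kk α q.2.1) q.2.2 * f (P q)))
    (hr.mul ((hdk.clm_apply (hFc.comp hPc).continuousOn).mul hfP)) (fun r hr w v hv => by simp [(hz r hr w v hv).1])
  have i4 := gs_int (s := s) (R := R) (H := fun q => ⟪AA α q.2.1 q.2.2, q.2.1⟫_ℝ * f (P q))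
    (hAw.mul hfP) (fun r hr w v hv => by simp [(hz r hr w v hv).1])
  have i0 := gs_int (s := s) (R := R) (H := fun q => q.1 *
      D (⟪α q.2.2, relVel q.2.2⟫_ℝ, ((α q.2.2, 0) : P6)) f (P q))
    (hr.mul (hD (Continuous.continuousOn (by fun_prop)))) (fun r hr w v hv => by simp [(hz r hr w v hv).2])
  have ip := gs_int (s := s) (R := R) (H := fun q => gk α q.1 q.2.1 q.2.2 (F (P q)) * f (P q))
    ((hc.add (hr.mul (hdk.clm_apply (hFc.comp hPc).continuousOn))).mul hfP) (fun r hr w v hv => by simp [(hz r hr w v hv).1])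
  have e0 := gsd_tri1 i0
  have e1 := gsd_tri3 i1
  have e2 : _ = _ := (gsd_tri2 i2).trans (Eq.trans (by
    refine integral_congr_ae (ae_of_all _ fun r => integral_congr_ae (ae_of_all _ fun v => ?_))
    exact gs_w h.hf hα (s - r) r x v) (gsd_tri2 i2').symm)
  have e3 : _ = _ := (gsd_tri1 i3).trans (Eq.trans (by
    refine integral_congr_ae (ae_of_all _ fun r => integral_congr_ae (sg_ae_norm.mono fun w hw => ?_))
    have hkw : ContDiff ℝ 1 (kk α w) := contDiff_iff_contDiffAt.2 fun v =>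
      (ContDiffAt.comp (g := fun p : R3 × R3 => kk α p.1 p.2) (f := fun v : R3 => (w, v)) v
        (contDiffAt_kk hα hw.le v) (by fun_prop)).of_le (by simp)
    simp only [integral_const_mul]
    exact congrArg (r * ·) (gs_v h hkw (s - r) (x + r • w))) (gsd_tri1 i3').symm)
  have ep := gsd_tri1 ip
  have hS : S (src α f) (s, x) = _ := Eq.trans (by
    simp only [S, N, src, intervalIntegral.integral_of_le hs, integral_const_mul, smul_eq_mul, hP]) e0.symm
  have hB : bdry α f s x = _ := Eq.trans (by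
    simp only [bdry, ← integral_const_mul]
    refine integral_congr_ae (ae_of_all _ fun w => integral_congr_ae (ae_of_all _ fun v => ?_))
    have := gs_r h.hf s x w v
    rw [intervalIntegral.integral_of_le hs] at this
    simp only [integral_const_mul, hP, this]
    ring) e1.symm
  have hp : pol α f F s x = _ := Eq.trans (by
    simp only [pol, intervalIntegral.integral_of_le hs, hP]) ep.symm
  have hae : ∀ᵐ q ∂((volume.restrict (Ioc 0 s)).prod (sg.prod (volume : Measure R3))), ‖q.2.1‖ = 1 :=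
    (Measure.quasiMeasurePreserving_snd.tendsto_ae.eventually
      (Measure.quasiMeasurePreserving_fst.tendsto_ae.eventually sg_ae_norm))
  have s0 := integral_congr_ae (μ := (volume.restrict (Ioc 0 s)).prod (sg.prod (volume : Measure R3)))
    (f := fun q => q.1 * D (⟪α q.2.2, relVel q.2.2⟫_ℝ, ((α q.2.2, 0) : P6)) f (P q))
    (g := fun q => ⟪AA α q.2.1 q.2.2, q.2.1⟫_ℝ * (q.1 * D ((-1 : ℝ), ((q.2.1, 0) : P6)) f (P q) + f (P q)) -
      ⟪AA α q.2.1 q.2.2, q.2.1⟫_ℝ * f (P q) +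
      q.1 * D ((0 : ℝ), ((AA α q.2.1 q.2.2 - ⟪AA α q.2.1 q.2.2, q.2.1⟫_ℝ • q.2.1, 0) : P6)) f (P q) +
      q.1 * (kk α q.2.1 q.2.2 * D ((1 : ℝ), ((relVel q.2.2, 0) : P6)) f (P q)))
    (hae.mono fun q hq => by
      simp only
      rw [gs_split α f hq q.2.2 (P q)]
      ring)
  have sp := integral_congr_ae (μ := (volume.restrict (Ioc 0 s)).prod (sg.prod (volume : Measure R3)))
    (f := fun q => gk α q.1 q.2.1 q.2.2 (F (P q)) * f (P q))
    (g := fun q => (⟪AA α q.2.1 q.2.2, q.2.1⟫_ℝ +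
      kk α q.2.1 q.2.2 * (1 + ‖q.2.2‖ ^ 2)⁻¹ / (1 + ⟪relVel q.2.2, q.2.1⟫_ℝ)) * f (P q) -
      ⟪AA α q.2.1 q.2.2, q.2.1⟫_ℝ * f (P q) + q.1 * (D (F (P q)) (kk α q.2.1) q.2.2 * f (P q)))
    (ae_of_all _ fun q => by
      simp only [gk]
      ring)
  have a1 := integral_add ((i1.sub i4).add i2) i3
  have a2 := integral_add (i1.sub i4) i2
  have a3 := integral_sub i1 i4
  have b1 := integral_add (i2'.sub i4) i3'
  have b2 := integral_sub i2' i4
  simp only [Pi.add_apply, Pi.sub_apply] at a1 a2 b1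
  rw [hS, hB, hp, s0, sp, a1, a2, a3, b1, b2, e2, e3]
  ring

/-- the boundary term: `|A · w| ≤ 1 + 2 / (1 - q)` (`exists_speed`), volume of the ball -/
theorem bdry_le (L : ℝ) : ∃ C : ℝ, 0 ≤ C ∧ ∀ (α : R3 → R3) (f : ℝ × P6 → ℝ), (∀ v, ‖α v‖ ≤ 1) →
    (∀ z, |f (0, z)| ≤ L) → (∀ z : P6, L < ‖z.2‖ → f (0, z) = 0) → ∀ (s : ℝ) (x : R3), 0 ≤ s → |bdry α f s x| ≤ s * C := by
  obtain ⟨q, hq0, hq1, hq⟩ := exists_speed L
  have hq2 : 0 < 1 - q := by linarith
  refine ⟨volume.real (closedBall (0 : R3) L) * ((1 + 2 / (1 - q)) * |L|), by positivity, fun α f hα hL h0 s x hs => ?_⟩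
  rw [bdry, abs_mul, abs_of_nonneg hs]
  refine mul_le_mul_of_nonneg_left ?_ hs
  have h1 : ∀ w : R3, ‖w‖ = 1 → ‖∫ v, ⟪AA α w v, w⟫_ℝ * f (0, (x + s • w, v))‖ ≤
      volume.real (closedBall (0 : R3) L) * ((1 + 2 / (1 - q)) * |L|) := by
    intro w hw
    rw [← setIntegral_eq_integral_of_forall_compl_eq_zero (s := closedBall (0 : R3) L) fun v hv => by
      rw [h0 (x + s • w, v) (by simpa using hv), mul_zero], mul_comm]
    refine norm_setIntegral_le_of_norm_le_const (isCompact_closedBall _ _).measure_lt_top fun v hv => ?_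
    have h2 := hq v (mem_closedBall_zero_iff.1 hv)
    have h3 : 1 - q ≤ 1 + ⟪relVel v, w⟫_ℝ := by
      have := abs_real_inner_le_norm (relVel v) w
      rw [hw, mul_one] at this
      linarith [(abs_le.1 this).1]
    have h4 : |kk α w v| ≤ 2 / (1 - q) := by
      rw [kk, abs_div, abs_of_pos (hq2.trans_le h3)]
      refine div_le_div₀ zero_le_two ((abs_real_inner_le_norm _ _).trans ?_) hq2 h3
      have h5 : ‖relVel v + w‖ ≤ 2 := (norm_add_le _ _).trans (by linarith)
      nlinarith [hα v, norm_nonneg (α v), norm_nonneg (relVel v + w)]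
    have h5 : |⟪AA α w v, w⟫_ℝ| ≤ 1 + 2 / (1 - q) := by
      refine (abs_real_inner_le_norm _ _).trans ?_
      rw [hw, mul_one, AA]
      refine (norm_sub_le _ _).trans (add_le_add (hα v) ?_)
      rw [norm_smul, Real.norm_eq_abs]
      exact (mul_le_of_le_one_right (abs_nonneg _) (by linarith)).trans h4
    rw [norm_mul, Real.norm_eq_abs, Real.norm_eq_abs]
    exact mul_le_mul h5 ((hL _).trans (le_abs_self L)) (abs_nonneg _) (by positivity)
  simpa using norm_integral_le_of_norm_le_const (sg_ae_norm.mono h1)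

end Crest.Agent.R106.Rep
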