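import Crest.Agent.R106.Rep.GS

/-! Row 106, frame block: from polar coordinates to the Liénard-Wiechert kernels on the solid cone. -/

set_option autoImplicit false

noncomputable section

namespace Crest.Agent.R106.Rep

open MeasureTheory Metric Set Filter Topology
open scoped ContDiff InnerProductSpace ENNReal
open Crest.AnalysisR.VecCalc3 Crest.AnalysisR.PDE.RVM Crest.Agent.R106.Wave

variable {f : ℝ × P6 → ℝ} {F : ℝ × P6 → R3}

theorem lwa_D (c : R3) (k : ℝ) {w : R3} (hw : ‖w‖ = 1) (v G : R3) :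
    D G (fun v => (⟪c, relVel v⟫_ℝ + k) / (1 + ⟪relVel v, w⟫_ℝ)) v =
      ⟪c, A.acc v G⟫_ℝ / (1 + ⟪relVel v, w⟫_ℝ) -
        (⟪c, relVel v⟫_ℝ + k) * ⟪A.acc v G, w⟫_ℝ / (1 + ⟪relVel v, w⟫_ℝ) ^ 2 := by
  have hb := den_pos hw.le v
  have hL : HasFDerivAt relVel (fderiv ℝ relVel v) v := (smooth_relVel.differentiable (by simp) v).hasFDerivAt
  have hG : fderiv ℝ relVel v G = A.acc v G := D_relVel v G
  have h1 := ((hasFDerivAt_const c v).inner ℝ hL).add_const k
  have h2 := (hL.inner ℝ (hasFDerivAt_const w v)).const_add 1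
  have h2' := HasDerivAt.comp_hasFDerivAt (𝕜 := ℝ) (𝕜' := ℝ) (f := fun v => 1 + ⟪relVel v, w⟫_ℝ) v
    (hasDerivAt_inv hb.ne') h2
  have h3 := h1.mul h2'
  have e : (fun v => (⟪c, relVel v⟫_ℝ + k) / (1 + ⟪relVel v, w⟫_ℝ)) = (fun v => ⟪c, relVel v⟫_ℝ + k) *
      ((fun y : ℝ => y⁻¹) ∘ fun v => 1 + ⟪relVel v, w⟫_ℝ) := by
    funext v; simp [div_eq_mul_inv]
  rw [D, e, h3.fderiv]
  simp [hG]
  field_simp
  ring

theorem lwa_z {w : R3} (hw : ‖w‖ = 1) {r : ℝ} (hr : 0 < r) (x : R3) :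
    ‖x - (x + r • w)‖ = r ∧ A.dir (x - (x + r • w)) = -w := by
  have h : ‖x - (x + r • w)‖ = r := by
    rw [sub_add_cancel_left, norm_neg, norm_smul, hw, mul_one, Real.norm_of_nonneg hr.le]
  refine ⟨h, ?_⟩
  rw [A.dir, h, sub_add_cancel_left, smul_neg, smul_smul, inv_mul_cancel₀ hr.ne', one_smul]

theorem lwa_ang (w v : R3) : A.ang (-w) v = 1 + ⟪relVel v, w⟫_ℝ := by
  rw [A.ang, inner_neg_left, real_inner_comm, sub_neg_eq_add]

theorem lwa_en (v : R3) : A.en v ^ 2 = 1 + ‖v‖ ^ 2 := Real.sq_sqrt (by positivity)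

theorem lwa_e3 (i : Fin 3) (a : R3) : ⟪e3 i, a⟫_ℝ = a i := by
  simp [e3, EuclideanSpace.inner_single_left]

theorem lwa_cr (i : Fin 3) (w a : R3) : ⟪cross3 (e3 i) w, a⟫_ℝ = cross3 w a i := by
  fin_cases i <;> simp [e3, cross3, PiLp.inner_apply, Fin.sum_univ_three] <;> ring

theorem lwa_cr' (i : Fin 3) (w a : R3) : ⟪cross3 a (e3 i), a + w⟫_ℝ = ⟪cross3 (e3 i) w, a⟫_ℝ + 0 := by
  fin_cases i <;> simp [e3, cross3, PiLp.inner_apply, Fin.sum_univ_three] <;> ring

/-- kernel of `E`: at `y = x + r • w` one has `n = -w`, `b = 1 + u · w` (`D_relVel`, quotient rule) -/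
theorem ker_E {w : R3} (hw : ‖w‖ = 1) {r : ℝ} (hr : 0 < r) (x v G : R3) (i : Fin 3) :
    r ^ 2 * (bb x (x + r • w, v) * (A.ET (x - (x + r • w)) v + A.ES (x - (x + r • w)) v G) i) = -gk (alE i) r w v G := by
  obtain ⟨h1, h2⟩ := lwa_z hw hr x
  have hb := den_pos hw.le v
  have hk : kk (alE i) w = fun v => (⟪e3 i, relVel v⟫_ℝ + ⟪e3 i, w⟫_ℝ) / (1 + ⟪relVel v, w⟫_ℝ) := by
    funext v; rw [kk, alE, inner_add_right]
  rw [gk, hk, lwa_D _ _ hw]
  simp only [bb, A.ET, A.ES, h1, h2, lwa_ang, lwa_en, lwa_e3, inner_neg_left, real_inner_comm (A.acc v G) w,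
    PiLp.add_apply, PiLp.smul_apply, PiLp.sub_apply, PiLp.neg_apply, smul_eq_mul]
  have : (0 : ℝ) < 1 + ‖v‖ ^ 2 := by positivity
  field_simp
  ring

/-- kernel of `B` -/
theorem ker_B {w : R3} (hw : ‖w‖ = 1) {r : ℝ} (hr : 0 < r) (x v G : R3) (i : Fin 3) :
    r ^ 2 * (bb x (x + r • w, v) *
      cross3 (A.dir (x - (x + r • w))) (A.ET (x - (x + r • w)) v + A.ES (x - (x + r • w)) v G) i) = gk (alB i) r w v G := by
  obtain ⟨h1, h2⟩ := lwa_z hw hr x
  have hb := den_pos hw.le v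
  have hk : kk (alB i) w = fun v => (⟪cross3 (e3 i) w, relVel v⟫_ℝ + 0) / (1 + ⟪relVel v, w⟫_ℝ) := by
    funext v; rw [kk, alB, lwa_cr']
  rw [gk, hk, lwa_D _ _ hw]
  simp only [bb, A.ET, A.ES, h1, h2, lwa_ang, lwa_en, lwa_cr, inner_neg_left, real_inner_comm (A.acc v G) w]
  have : (0 : ℝ) < 1 + ‖v‖ ^ 2 := by positivity
  generalize ⟪A.acc v G, w⟫_ℝ = q
  generalize 1 + ⟪relVel v, w⟫_ℝ = b at hb
  generalize 1 + ‖v‖ ^ 2 = g at this
  fin_cases i <;> simp [cross3] <;> field_simp <;> ring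

theorem lwb_m_dir {X : Type*} [MeasurableSpace X] {a : X → R3} (ha : Measurable a) : Measurable fun p => A.dir (a p) :=
  ha.norm.inv.smul ha

theorem lwb_m_rel {X : Type*} [MeasurableSpace X] {a : X → R3} (ha : Measurable a) : Measurable fun p => relVel (a p) :=
  smooth_relVel.continuous.measurable.comp ha

theorem lwb_m_en {X : Type*} [MeasurableSpace X] {a : X → R3} (ha : Measurable a) : Measurable fun p => A.en (a p) :=
  (measurable_const.add (ha.norm.pow_const 2)).sqrt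

theorem lwb_m_ang {X : Type*} [MeasurableSpace X] {a b : X → R3} (ha : Measurable a) (hb : Measurable b) :
    Measurable fun p => A.ang (a p) (b p) :=
  measurable_const.sub (ha.inner (lwb_m_rel hb))

theorem lwb_m_acc {X : Type*} [MeasurableSpace X] {a b : X → R3} (ha : Measurable a) (hb : Measurable b) :
    Measurable fun p => A.acc (a p) (b p) :=
  (lwb_m_en ha).inv.smul (hb.sub (((lwb_m_rel ha).inner (𝕜 := ℝ) hb).smul (lwb_m_rel ha)))

theorem lwb_m_ET {X : Type*} [MeasurableSpace X] {a b : X → R3} (ha : Measurable a) (hb : Measurable b) :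
    Measurable fun p => A.ET (a p) (b p) :=
  ((((lwb_m_en hb).pow_const 2).mul ((lwb_m_ang (lwb_m_dir ha) hb).pow_const 3)).mul (ha.norm.pow_const 2)).inv.smul
    ((lwb_m_dir ha).sub (lwb_m_rel hb))

theorem lwb_m_ES {X : Type*} [MeasurableSpace X] {a b c : X → R3} (ha : Measurable a) (hb : Measurable b)
    (hc : Measurable c) : Measurable fun p => A.ES (a p) (b p) (c p) :=
  (((lwb_m_ang (lwb_m_dir ha) hb).pow_const 3).mul ha.norm).inv.smul
    ((((lwb_m_dir ha).inner (𝕜 := ℝ) (lwb_m_acc hb hc)).smul ((lwb_m_dir ha).sub (lwb_m_rel hb))).sub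
      ((lwb_m_ang (lwb_m_dir ha) hb).smul (lwb_m_acc hb hc)))

theorem lwb_c_up (s : ℝ) (x : R3) : Continuous (up s x) :=
  (continuous_const.sub (continuous_const.sub continuous_fst).norm).prodMk continuous_id

theorem lwb_c_cross : Continuous fun p : R3 × R3 => cross3 p.1 p.2 :=
  (bac_cross (contDiff_fst (𝕜 := ℝ)) contDiff_snd).continuous

theorem lwb_ang_le (z v : R3) : A.ang (A.dir z) v ≤ 2 := by
  have h1 := abs_real_inner_le_norm (A.dir z) (relVel v)
  have h2 := norm_dir_le z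
  have h3 := U.norm_relVel_le v
  have h4 : ‖A.dir z‖ * ‖relVel v‖ ≤ 1 := mul_le_one₀ h2 (norm_nonneg _) h3
  have h5 := (abs_le.1 (h1.trans h4)).1
  unfold A.ang
  linarith

theorem lwb_ang_ge (z v : R3) : 1 - ‖relVel v‖ ≤ A.ang (A.dir z) v := by
  have h1 := abs_real_inner_le_norm (A.dir z) (relVel v)
  have h2 := norm_dir_le z
  have h4 : ‖A.dir z‖ * ‖relVel v‖ ≤ ‖relVel v‖ := mul_le_of_le_one_left (norm_nonneg _) h2
  have h5 := (abs_le.1 (h1.trans h4)).2
  unfold A.ang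
  linarith

theorem lwb_en_ge (v : R3) : 1 ≤ A.en v := by
  unfold A.en
  exact Real.le_sqrt_of_sq_le (by nlinarith [sq_nonneg ‖v‖])

theorem lwb_acc_le (v G : R3) : ‖A.acc v G‖ ≤ 2 * ‖G‖ := by
  have h1 := lwb_en_ge v
  have h3 := U.norm_relVel_le v
  have h2 : ‖⟪relVel v, G⟫_ℝ • relVel v‖ ≤ ‖G‖ := by
    rw [norm_smul, Real.norm_eq_abs]
    have h4 := abs_real_inner_le_norm (relVel v) G
    have h5 : ‖relVel v‖ * ‖G‖ ≤ ‖G‖ := mul_le_of_le_one_left (norm_nonneg _) h3
    calc _ ≤ |⟪relVel v, G⟫_ℝ| := mul_le_of_le_one_right (abs_nonneg _) h3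
      _ ≤ _ := h4.trans h5
  have h6 : ‖G - ⟪relVel v, G⟫_ℝ • relVel v‖ ≤ 2 * ‖G‖ := (norm_sub_le _ _).trans (by linarith)
  have h7 : ‖(A.en v)⁻¹‖ ≤ 1 := by
    rw [Real.norm_eq_abs, abs_of_nonneg (by positivity)]
    exact inv_le_one_of_one_le₀ h1
  unfold A.acc
  rw [norm_smul]
  calc _ ≤ 1 * (2 * ‖G‖) := mul_le_mul h7 h6 (norm_nonneg _) zero_le_one
    _ = _ := one_mul _

theorem measurable_lw (hF : Continuous F) (s : ℝ) (x : R3) : Measurable (lw F s x) := by
  have h1 : Measurable fun z : P6 => x - z.1 := measurable_const.sub measurable_fst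
  exact (lwb_m_ET h1 measurable_snd).add (lwb_m_ES h1 measurable_snd (hF.comp (lwb_c_up s x)).measurable)

theorem measurable_clw (hF : Continuous F) (s : ℝ) (x : R3) :
    Measurable fun z : P6 => cross3 (A.dir (x - z.1)) (lw F s x z) := by
  have h1 : Measurable fun z : P6 => x - z.1 := measurable_const.sub measurable_fst
  exact lwb_c_cross.measurable.comp ((lwb_m_dir h1).prodMk (measurable_lw hF s x))

/-- size of the kernel for bounded momenta and forces (`bb_ge`, `exists_speed`) -/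
theorem lw_le (R K : ℝ) : ∃ C : ℝ, ∀ z v G : R3, ‖v‖ ≤ R → ‖G‖ ≤ K → ‖z‖ ≤ K →
    ‖A.ET z v + A.ES z v G‖ ≤ C * (‖z‖ ^ 2)⁻¹ := by
  obtain ⟨q, hq0, hq1, hq⟩ := exists_speed R
  refine ⟨((1 - q) ^ 3)⁻¹ * (2 + 8 * K * K), fun z v G hv hG hz => ?_⟩
  have hβ : 0 < 1 - q := by linarith
  have hb : 1 - q ≤ A.ang (A.dir z) v := by
    have := lwb_ang_ge z v
    have := hq v hv
    linarith
  have hb0 : 0 < A.ang (A.dir z) v := hβ.trans_le hb
  have hb2 := lwb_ang_le z v
  have hK : 0 ≤ K := (norm_nonneg _).trans hG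
  have hb3 : (A.ang (A.dir z) v ^ 3)⁻¹ ≤ ((1 - q) ^ 3)⁻¹ :=
    inv_anti₀ (by positivity) (pow_le_pow_left₀ hβ.le hb 3)
  have hd : ‖A.dir z - relVel v‖ ≤ 2 := by
    have := norm_sub_le (A.dir z) (relVel v)
    have := norm_dir_le z
    have := U.norm_relVel_le v
    linarith
  have he : (A.en v ^ 2)⁻¹ ≤ 1 := inv_le_one_of_one_le₀ (one_le_pow₀ (lwb_en_ge v))
  have he0 : 0 < A.en v := zero_lt_one.trans_le (lwb_en_ge v)
  have hacc : ‖A.acc v G‖ ≤ 2 * K := (lwb_acc_le v G).trans (by linarith)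
  have hT : ‖A.ET z v‖ ≤ ((1 - q) ^ 3)⁻¹ * 2 * (‖z‖ ^ 2)⁻¹ := by
    unfold A.ET
    rw [norm_smul, Real.norm_eq_abs, abs_of_nonneg (by positivity), mul_inv, mul_inv]
    calc _ ≤ 1 * ((1 - q) ^ 3)⁻¹ * (‖z‖ ^ 2)⁻¹ * 2 := by gcongr
      _ = _ := by ring
  have hz1 : ‖z‖⁻¹ ≤ K * (‖z‖ ^ 2)⁻¹ := by
    rcases (norm_nonneg z).eq_or_lt with h0 | h0
    · rw [← h0]
      simp
    · calc ‖z‖⁻¹ = ‖z‖ * (‖z‖ ^ 2)⁻¹ := by field_simp
        _ ≤ _ := by gcongr
  have hin : ‖⟪A.dir z, A.acc v G⟫_ℝ • (A.dir z - relVel v) - A.ang (A.dir z) v • A.acc v G‖ ≤ 8 * K := by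
    have h1 : |⟪A.dir z, A.acc v G⟫_ℝ| ≤ 2 * K :=
      (abs_real_inner_le_norm _ _).trans ((mul_le_of_le_one_left (norm_nonneg _) (norm_dir_le z)).trans hacc)
    refine (norm_sub_le _ _).trans ?_
    rw [norm_smul, norm_smul, Real.norm_eq_abs, Real.norm_eq_abs, abs_of_pos hb0]
    calc _ ≤ 2 * K * 2 + 2 * (2 * K) := by gcongr
      _ = _ := by ring
  have hS : ‖A.ES z v G‖ ≤ ((1 - q) ^ 3)⁻¹ * (8 * K * K) * (‖z‖ ^ 2)⁻¹ := by
    unfold A.ES
    rw [norm_smul, Real.norm_eq_abs, abs_of_nonneg (by positivity), mul_inv]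
    calc _ ≤ ((1 - q) ^ 3)⁻¹ * (K * (‖z‖ ^ 2)⁻¹) * (8 * K) := by gcongr
      _ = _ := by ring
  calc _ ≤ _ := norm_add_le _ _
    _ ≤ _ := add_le_add hT hS
    _ = _ := by ring

/-- `‖x - y‖⁻²` is integrable on balls of `R3` -/
theorem int_inv_sq (x : R3) (s : ℝ) : IntegrableOn (fun y : R3 => (‖x - y‖ ^ 2)⁻¹) {y | ‖x - y‖ ≤ s} := by
  have h0 : IntegrableOn (fun y : R3 => (‖y‖ ^ 2)⁻¹) (ball 0 (s + 1)) := by
    refine integrableOn_ball_of_norm_le_rpow (C := 1) (α := 2) (by simp) (by simp; norm_num)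
      (Eventually.of_forall fun y => ?_) ((measurable_norm.pow_const 2).inv.aestronglyMeasurable)
    rw [Real.norm_eq_abs, abs_of_nonneg (by positivity), one_mul, Real.rpow_neg (norm_nonneg _), Real.rpow_two]
  have h1 := ((Measure.measurePreserving_sub_left (volume : Measure R3) x).integrableOn_comp_preimage
    (MeasurableEquiv.subLeft x).measurableEmbedding).2 h0
  refine h1.mono_set fun y hy => ?_
  simp only [mem_preimage, mem_ball_zero_iff]
  have hy' : ‖x - y‖ ≤ s := hy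
  linarith

theorem lwb_dom (h : Den f F) (s : ℝ) (x : R3) {G : P6 → R3} (hG : Measurable G) (hle : ∀ z, ‖G z‖ ≤ ‖lw F s x z‖) :
    IntegrableOn (fun z => (bb x z * f (up s x z)) • G z) (cone s x) := by
  obtain ⟨R, hR0, hR⟩ := h.supp s
  have hc : IsCompact (Icc 0 s ×ˢ closedBall (0 : P6) R) := isCompact_Icc.prod (isCompact_closedBall _ _)
  obtain ⟨K, hK⟩ := hc.exists_bound_of_continuousOn h.hF.continuous.continuousOn
  obtain ⟨L, hL⟩ := hc.exists_bound_of_continuousOn h.hf.continuous.continuousOn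
  obtain ⟨C, hC⟩ := lw_le R (max K s)
  have hm : MeasurableSet {y : R3 | ‖x - y‖ ≤ s} :=
    measurableSet_le (measurable_const.sub measurable_id).norm measurable_const
  have hcm : MeasurableSet (cone s x) := measurable_fst hm
  have i1 : Integrable ({y : R3 | ‖x - y‖ ≤ s}.indicator fun y => (‖x - y‖ ^ 2)⁻¹) :=
    (integrable_indicator_iff hm).2 (int_inv_sq x s)
  have i2 : Integrable ((closedBall (0 : R3) R).indicator fun _ => (1 : ℝ)) :=
    (integrable_indicator_iff measurableSet_closedBall).2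
      (integrableOn_const (measure_closedBall_lt_top (μ := (volume : Measure R3))).ne)
  have i3 := ((i1.mul_prod i2).const_mul (2 * |L| * |C|))
  have i4 : IntegrableOn (fun z : P6 => 2 * |L| * |C| * (({y : R3 | ‖x - y‖ ≤ s}.indicator fun y => (‖x - y‖ ^ 2)⁻¹) z.1 *
      ((closedBall (0 : R3) R).indicator fun _ => (1 : ℝ)) z.2)) (cone s x) := Integrable.integrableOn i3
  refine Integrable.mono' i4
    (((measurable_bb x).mul (h.hf.continuous.comp (lwb_c_up s x)).measurable).smul hG).aestronglyMeasurable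
    ((ae_restrict_iff' hcm).2 (Eventually.of_forall fun z hz => ?_))
  have hz' : ‖x - z.1‖ ≤ s := hz
  have ht : s - ‖x - z.1‖ ∈ Icc 0 s := ⟨by linarith, by linarith [norm_nonneg (x - z.1)]⟩
  rw [indicator_of_mem (show z.1 ∈ {y : R3 | ‖x - y‖ ≤ s} from hz')]
  by_cases hzR : R < ‖z‖
  · have h0 : f (up s x z) = 0 := hR _ z (by rw [abs_of_nonneg ht.1]; exact ht.2) hzR
    rw [h0, mul_zero, zero_smul, norm_zero]
    have : 0 ≤ ((closedBall (0 : R3) R).indicator fun _ => (1 : ℝ)) z.2 := indicator_nonneg (fun _ _ => zero_le_one) _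
    positivity
  · have hzR' : ‖z‖ ≤ R := not_lt.1 hzR
    have hv : ‖z.2‖ ≤ R := (norm_snd_le z).trans hzR'
    have hmem : up s x z ∈ Icc 0 s ×ˢ closedBall (0 : P6) R := ⟨ht, mem_closedBall_zero_iff.2 hzR'⟩
    rw [indicator_of_mem (mem_closedBall_zero_iff.2 hv), mul_one, norm_smul, norm_mul]
    have h1 : ‖bb x z‖ ≤ 2 := by
      rw [Real.norm_eq_abs, abs_of_pos (bb_pos x z)]
      exact lwb_ang_le _ _
    have h2 : ‖f (up s x z)‖ ≤ |L| := (hL _ hmem).trans (le_abs_self _)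
    have h3 : ‖G z‖ ≤ |C| * (‖x - z.1‖ ^ 2)⁻¹ := by
      refine (hle z).trans ((hC _ _ _ hv ((hK _ hmem).trans (le_max_left _ _)) (hz'.trans (le_max_right _ _))).trans ?_)
      gcongr
      exact le_abs_self _
    calc _ ≤ 2 * |L| * (|C| * (‖x - z.1‖ ^ 2)⁻¹) := by gcongr
      _ = _ := by ring

/-- domination by `C ‖x - y‖⁻² 1_{‖v‖ ≤ R}` (`lw_le`, `int_inv_sq`, `Integrable.mul_prod`) -/
theorem lw_int (h : Den f F) (s : ℝ) (x : R3) :
    IntegrableOn (fun z => (bb x z * f (up s x z)) • lw F s x z) (cone s x) ∧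
    IntegrableOn (fun z => (bb x z * f (up s x z)) • cross3 (A.dir (x - z.1)) (lw F s x z)) (cone s x) := by
  exact ⟨lwb_dom h s x (measurable_lw h.hF.continuous s x) fun _ => le_rfl,
    lwb_dom h s x (measurable_clw h.hF.continuous s x) fun z =>
      (U.norm_cross3_le _ _).trans (mul_le_of_le_one_left (norm_nonneg _) (norm_dir_le _))⟩

theorem lwc_om : ((3 : ℕ) : ℝ) * R230.om 3 = 4 * Real.pi := by
  rw [R230.om, Measure.real, EuclideanSpace.volume_ball_fin_three, ENNReal.toReal_mul, ENNReal.toReal_pow,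
    ENNReal.toReal_ofReal zero_le_one, ENNReal.toReal_ofReal (by positivity)]
  push_cast
  ring

theorem lwc_norm {w : R3} (hw : ‖w‖ = 1) {r : ℝ} (hr : 0 < r) (x : R3) : ‖x - (x + r • w)‖ = r := by
  rw [sub_add_cancel_left, norm_neg, norm_smul, hw, mul_one, Real.norm_of_nonneg hr.le]

/-- polar coordinates on the solid cone (`integral_prod`, translation, `R230.integral_polar` with `3 * om 3 = 4 π`) -/
theorem cone_polar {g : P6 → ℝ} {s : ℝ} (hs : 0 ≤ s) (x : R3) (hg : IntegrableOn g (cone s x)) :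
    ∫ z in cone s x, g z = 4 * Real.pi * ∫ r in (0 : ℝ)..s, ∫ w, (∫ v, r ^ 2 * g (x + r • w, v)) ∂sg := by
  have hm : MeasurableSet (cone s x) := (isClosed_le (by fun_prop) continuous_const).measurableSet
  have hG : Integrable ((cone s x).indicator g) ((volume : Measure R3).prod volume) :=
    (integrable_indicator_iff hm).2 hg
  have hH : Integrable (fun y : R3 => ∫ v, (cone s x).indicator g (x + y, v)) :=
    hG.integral_prod_left.comp_add_left x
  have h1 : ∫ z in cone s x, g z = ∫ y : R3, ∫ v, (cone s x).indicator g (x + y, v) := by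
    rw [← integral_indicator hm, integral_add_left_eq_self (fun y : R3 => ∫ v, (cone s x).indicator g (y, v)) x]
    exact integral_prod _ hG
  rw [h1, R230.integral_polar hH, lwc_om, intervalIntegral.integral_of_le hs, ← Ioi_inter_Iic,
    ← setIntegral_indicator measurableSet_Iic]
  congr 1
  refine setIntegral_congr_fun measurableSet_Ioi fun r hr => ?_
  have hr' : 0 < r := hr
  by_cases hrs : r ≤ s
  · rw [indicator_of_mem (show r ∈ Iic s from hrs)]
    simp only [integral_const_mul]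
    congr 1
    refine integral_congr_ae (sg_ae_norm.mono fun w hw => ?_)
    refine integral_congr_ae (Eventually.of_forall fun v => ?_)
    have hz : ((x + r • w, v) : P6) ∈ cone s x := by
      show ‖x - (x + r • w)‖ ≤ s
      rw [lwc_norm hw hr' x]; exact hrs
    exact indicator_of_mem hz g
  · rw [indicator_of_notMem (show r ∉ Iic s from hrs)]
    have h0 : ∫ w, (∫ v, (cone s x).indicator g (x + r • w, v)) ∂sg = 0 := by
      refine integral_eq_zero_of_ae (sg_ae_norm.mono fun w hw => ?_)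
      refine integral_eq_zero_of_ae (Eventually.of_forall fun v => ?_)
      have hz : ((x + r • w, v) : P6) ∉ cone s x := by
        show ¬ ‖x - (x + r • w)‖ ≤ s
        rw [lwc_norm hw hr' x]; exact hrs
      exact indicator_of_notMem hz g
    show r ^ (3 - 1) * ∫ w, (∫ v, (cone s x).indicator g (x + r • w, v)) ∂sg = 0
    rw [h0, mul_zero]

theorem lwc_coord {G : P6 → R3} {s : ℝ} (hs : 0 ≤ s) (x : R3) (hG : IntegrableOn G (cone s x)) (i : Fin 3) :
    ((4 * Real.pi)⁻¹ • ∫ z in cone s x, G z) i =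
      ∫ r in (0 : ℝ)..s, ∫ w, (∫ v, r ^ 2 * G (x + r • w, v) i) ∂sg := by
  have h1 : ∫ z in cone s x, G z i = (∫ z in cone s x, G z) i :=
    (EuclideanSpace.proj i : R3 →L[ℝ] ℝ).integral_comp_comm hG
  have h2 : IntegrableOn (fun z => G z i) (cone s x) := (EuclideanSpace.proj i : R3 →L[ℝ] ℝ).integrable_comp hG
  rw [PiLp.smul_apply, smul_eq_mul, ← h1, cone_polar hs x h2, ← mul_assoc, inv_mul_cancel₀ (by positivity), one_mul]

/-- `cone_polar`, `ker_E`, `ker_B`, `lw_int`; coordinates commute with the integral -/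
theorem pol_eq (h : Den f F) {s : ℝ} (hs : 0 ≤ s) (x : R3) (i : Fin 3) :
    ((4 * Real.pi)⁻¹ • ∫ z in cone s x, (bb x z * f (up s x z)) • lw F s x z) i = -pol (alE i) f F s x ∧
    ((4 * Real.pi)⁻¹ • ∫ z in cone s x, (bb x z * f (up s x z)) • cross3 (A.dir (x - z.1)) (lw F s x z)) i =
      pol (alB i) f F s x := by
  obtain ⟨iE, iB⟩ := lw_int h s x
  constructor
  · rw [lwc_coord hs x iE i, pol, ← intervalIntegral.integral_neg, intervalIntegral.integral_of_le hs,
      intervalIntegral.integral_of_le hs]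
    refine setIntegral_congr_fun measurableSet_Ioc fun r hr => ?_
    simp only [← integral_neg]
    refine integral_congr_ae (sg_ae_norm.mono fun w hw => ?_)
    refine integral_congr_ae (Eventually.of_forall fun v => ?_)
    have hu : up s x (x + r • w, v) = (s - r, (x + r • w, v)) := by
      rw [up, lwc_norm hw hr.1 x]
    have hk := ker_E hw hr.1 x v (F (s - r, (x + r • w, v))) i
    simp only [lw, hu, PiLp.smul_apply, smul_eq_mul]
    linear_combination f (s - r, (x + r • w, v)) * hk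
  · rw [lwc_coord hs x iB i, pol, intervalIntegral.integral_of_le hs, intervalIntegral.integral_of_le hs]
    refine setIntegral_congr_fun measurableSet_Ioc fun r hr => ?_
    refine integral_congr_ae (sg_ae_norm.mono fun w hw => ?_)
    refine integral_congr_ae (Eventually.of_forall fun v => ?_)
    have hu : up s x (x + r • w, v) = (s - r, (x + r • w, v)) := by
      rw [up, lwc_norm hw hr.1 x]
    have hk := ker_B hw hr.1 x v (F (s - r, (x + r • w, v))) i
    simp only [lw, hu, PiLp.smul_apply, smul_eq_mul]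
    linear_combination f (s - r, (x + r • w, v)) * hk

end Crest.Agent.R106.Rep
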