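import Crest.Agent.R106.Rep.Dict
import Crest.Agent.R106.Rep.Box
import Crest.Agent.R106.Rep.LW
import Crest.Agent.R106.Flux.Main

/-! Row 106, frame block: (H1)-(H4) for the particle measure on `P6`. -/

set_option autoImplicit false

noncomputable section

namespace Crest.Agent.R106.Rep

open MeasureTheory Metric Set Filter Topology
open scoped ContDiff InnerProductSpace ENNReal
open Crest.AnalysisR.VecCalc3 Crest.AnalysisR.PDE.RVM Crest.Agent.R106.Wave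

variable {f₀ : R3 → R3 → ℝ} {E₀ B₀ : R3 → R3} {T : ℝ} {τ : ℝ → R3 → P6 → ℝ}

theorem laga_en : Measurable A.en := (Real.continuous_sqrt.comp (continuous_const.add (continuous_norm.pow 2))).measurable

theorem laga_en_nonneg (v : R3) : 0 ≤ A.en v := Real.sqrt_nonneg _

/-- (H1): `dict_lint`, `sol_le` -/
theorem lag_vol (hd : IsAdmissibleDatum f₀ E₀ B₀) (s : Sol f₀ E₀ B₀ T) (hτ : IsRet s.L.Z τ) {L : ℝ} (hL : ∀ x v, f₀ x v ≤ L)
    {t : ℝ} (ht : 0 ≤ t) (x : R3) {g : P6 → ℝ≥0∞} (hg : Measurable g) :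
    ∫⁻ z in cone t x, g (s.L.Z (τ t x z) z) * ENNReal.ofReal (bb x (s.L.Z (τ t x z) z))⁻¹ ∂mu s.L.f ≤
      ENNReal.ofReal L * ∫⁻ p, g p := by

  rw [dict_lint (sol_flo hd s) hτ ht x hg]
  calc ∫⁻ z in cone t x, g z * ENNReal.ofReal (s.L.f (up t x z)) ≤ ∫⁻ z in cone t x, ENNReal.ofReal L * g z :=
        lintegral_mono fun z => by
          rw [mul_comm]
          exact mul_le_mul_left (ENNReal.ofReal_le_ofReal (sol_le s hL _)) _
    _ ≤ ∫⁻ z, ENNReal.ofReal L * g z := setLIntegral_le_lintegral _ _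
    _ = _ := lintegral_const_mul _ hg

/-- (H2): `dict_lint` for `g z = ofReal (en z.2 * bb x z)`, `Flux.flux_cone` (the sphere is a null set) -/
theorem lag_coneP (hcl : S_CL) (hd : IsAdmissibleDatum f₀ E₀ B₀) (s : Sol f₀ E₀ B₀ T) (hτ : IsRet s.L.Z τ)
    {t : ℝ} (ht : t ∈ Ico 0 T) (x : R3) :
    ∫⁻ z in cone t x, ENNReal.ofReal (A.en (s.L.Z (τ t x z) z).2) ∂mu s.L.f ≤ ENNReal.ofReal (Flux.energy0 f₀ E₀ B₀) := by

  have hg : Measurable fun z : P6 => ENNReal.ofReal (A.en z.2 * bb x z) :=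
    ((laga_en.comp measurable_snd).mul (measurable_bb x)).ennreal_ofReal
  have e := dict_lint (sol_flo hd s) hτ ht.1 x hg
  have e1 : ∀ z : P6, ENNReal.ofReal (A.en z.2) = ENNReal.ofReal (A.en z.2 * bb x z) * ENNReal.ofReal (bb x z)⁻¹ := fun z => by
    rw [← ENNReal.ofReal_mul (mul_nonneg (laga_en_nonneg _) (bb_pos x z).le), mul_inv_cancel_right₀ (bb_pos x z).ne']
  rw [lintegral_congr fun z => e1 (s.L.Z (τ t x z) z), e]
  have e2 : cone t x =ᵐ[volume] (ball x t ×ˢ univ : Set P6) := by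
    filter_upwards [measure_eq_zero_iff_ae_notMem.1 (dictc_null x t)] with z hz
    refine propext ⟨fun h => ⟨?_, mem_univ _⟩, fun h => ?_⟩
    · rw [mem_ball', dist_eq_norm]
      exact lt_of_le_of_ne h hz
    · have := h.1
      rw [mem_ball', dist_eq_norm] at this
      exact this.le
  rw [Measure.restrict_congr_set e2]
  refine le_trans (le_of_eq (lintegral_congr fun z => ?_))
    (Flux.flux_cone (hcl f₀ E₀ B₀ hd T s) (fun t _ x v => bac_pos hd s _) ht x).1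
  rw [← ENNReal.ofReal_mul (mul_nonneg (laga_en_nonneg _) (bb_pos x z).le)]
  rfl

/-- (H2): `Flux.flux_cone` -/
theorem lag_coneF (hcl : S_CL) (hd : IsAdmissibleDatum f₀ E₀ B₀) (s : Sol f₀ E₀ B₀ T) {t : ℝ} (ht : t ∈ Ico 0 T) (x : R3) :
    ∫⁻ y in closedBall x t, ENNReal.ofReal (A.gd (A.dir (x - y)) (s.E (t - ‖x - y‖, y)) (s.B (t - ‖x - y‖, y))) ≤
      ENNReal.ofReal (Flux.energy0 f₀ E₀ B₀) := by

  have e2 : closedBall x t =ᵐ[volume] ball x t := by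
    filter_upwards [measure_eq_zero_iff_ae_notMem.1 (Measure.addHaar_sphere volume x t)] with z hz
    exact propext ⟨fun h => lt_of_le_of_ne h hz, fun h => ball_subset_closedBall h⟩
  rw [Measure.restrict_congr_set e2]
  exact (Flux.flux_cone (hcl f₀ E₀ B₀ hd T s) (fun t _ x v => bac_pos hd s _) ht x).2

/-- (H3): `push_lint`, `Flux.energy_le` -/
theorem lag_enP (hcl : S_CL) (hd : IsAdmissibleDatum f₀ E₀ B₀) (s : Sol f₀ E₀ B₀ T) {t : ℝ} (ht : t ∈ Ico 0 T) :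
    ∫⁻ z, ENNReal.ofReal (A.en (s.L.Z t z).2) ∂mu s.L.f ≤ ENNReal.ofReal (Flux.energy0 f₀ E₀ B₀) := by

  have hg : Measurable fun z : P6 => ENNReal.ofReal (A.en z.2) := (laga_en.comp measurable_snd).ennreal_ofReal
  rw [push_lint (sol_flo hd s) ht.1 hg]
  refine le_trans (le_of_eq (lintegral_congr fun z => ?_))
    (Flux.energy_le (hcl f₀ E₀ B₀ hd T s) (fun t _ x v => bac_pos hd s _) ht).1
  rw [← ENNReal.ofReal_mul (laga_en_nonneg _)]
  rfl

/-- (H3): `Flux.energy_le` -/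
theorem lag_enF (hcl : S_CL) (hd : IsAdmissibleDatum f₀ E₀ B₀) (s : Sol f₀ E₀ B₀ T) {t : ℝ} (ht : t ∈ Ico 0 T) :
    ∫⁻ y, ENNReal.ofReal (‖s.E (t, y)‖ ^ 2 + ‖s.B (t, y)‖ ^ 2) ≤ ENNReal.ofReal (2 * Flux.energy0 f₀ E₀ B₀) := by

  have e := (Flux.energy_le (hcl f₀ E₀ B₀ hd T s) (fun t _ x v => bac_pos hd s _) ht).2
  rw [ENNReal.ofReal_mul zero_le_two]
  refine le_trans (le_of_eq ?_) (mul_le_mul_right e _)
  rw [← lintegral_const_mul' _ _ ENNReal.ofReal_ne_top]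
  refine lintegral_congr fun y => ?_
  rw [← ENNReal.ofReal_mul zero_le_two, mul_div_cancel₀ _ two_ne_zero]
  rfl

theorem lagb_norm {a : R3} {C : ℝ} (h : ∀ i, |a i| ≤ C) : ‖a‖ ≤ 3 * C := by
  have hC : 0 ≤ C := (abs_nonneg _).trans (h 0)
  have h2 : ∀ i, a i ^ 2 ≤ C ^ 2 := fun i => by rw [← sq_abs]; exact pow_le_pow_left₀ (abs_nonneg _) (h i) 2
  refine (abs_le_of_sq_le_sq' ?_ (by positivity)).2
  rw [EuclideanSpace.real_norm_sq_eq, Fin.sum_univ_three]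
  nlinarith [h2 0, h2 1, h2 2, sq_nonneg C]

/-- (H4): `field_pol`, `pol_eq`, `lw_int`, `dict_int`; the norm is at most the sum of the three coordinates -/
theorem lag_lw (hd : IsAdmissibleDatum f₀ E₀ B₀) (T : ℝ) : ∃ C : ℝ, ∀ T' ≤ T, ∀ (s : Sol f₀ E₀ B₀ T') (τ : ℝ → R3 → P6 → ℝ),
    IsRet s.L.Z τ → ∀ t ∈ Icc 0 T', ∀ x : R3,
      IntegrableOn (fun z => lw (lor s.E s.B) t x (s.L.Z (τ t x z) z)) (cone t x) (mu s.L.f) ∧
      ‖s.E (t, x) - (4 * Real.pi)⁻¹ • ∫ z in cone t x, lw (lor s.E s.B) t x (s.L.Z (τ t x z) z) ∂mu s.L.f‖ ≤ C ∧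
      ‖s.B (t, x) - (4 * Real.pi)⁻¹ • ∫ z in cone t x,
        cross3 (A.dir (x - (s.L.Z (τ t x z) z).1)) (lw (lor s.E s.B) t x (s.L.Z (τ t x z) z)) ∂mu s.L.f‖ ≤ C := by
  obtain ⟨C, hC⟩ := field_pol hd T
  refine ⟨3 * C, fun T' hT' s τ hτ t ht x => ?_⟩
  have hD := sol_den hd s
  have hF := sol_flo hd s
  obtain ⟨i1, i2⟩ := lw_int hD t x
  obtain ⟨j1, e1⟩ := dict_int hF hτ ht.1 x (measurable_lw hD.hF.continuous t x) i1
  obtain ⟨-, e2⟩ := dict_int hF hτ ht.1 x (measurable_clw hD.hF.continuous t x) i2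
  refine ⟨j1, lagb_norm fun i => ?_, lagb_norm fun i => ?_⟩
  · rw [e1, PiLp.sub_apply, (pol_eq hD ht.1 x i).1, sub_neg_eq_add]
    exact (hC T' hT' s t ht x i).1
  · rw [e2, PiLp.sub_apply, (pol_eq hD ht.1 x i).2]
    exact (hC T' hT' s t ht x i).2

end Crest.Agent.R106.Rep
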