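import Crest.Agent.R106.Rep.Lag

/-! Row 106, frame block: a solution gives a Lagrangian frame; `S_APL` implies `S_AP`. -/

set_option autoImplicit false

noncomputable section

namespace Crest.Agent.R106.Rep

open MeasureTheory Metric Set Filter Topology
open scoped InnerProductSpace ENNReal
open Crest.AnalysisR.VecCalc3 Crest.AnalysisR.PDE.RVM Crest.Agent.R106.Wave

section sub
variable {X : Type} [MeasurableSpace X] {μ : Measure X} {A : Set X}

theorem sub_map (hA : MeasurableSet A) (hμ : ∀ᵐ z ∂μ, z ∈ A) {K : Set X} (hK : MeasurableSet K) :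
    Measure.map (Subtype.val : A → X) ((μ.comap Subtype.val).restrict (Subtype.val ⁻¹' K)) = μ.restrict K := by
  rw [← Measure.restrict_map measurable_subtype_coe hK, map_comap_subtype_coe hA,
    Measure.restrict_eq_self_of_ae_mem hμ]

theorem sub_lint (hA : MeasurableSet A) (hμ : ∀ᵐ z ∂μ, z ∈ A) {K : Set X} (hK : MeasurableSet K) (g : X → ℝ≥0∞) :
    ∫⁻ o : A in Subtype.val ⁻¹' K, g o.1 ∂μ.comap Subtype.val = ∫⁻ z in K, g z ∂μ := by
  rw [← sub_map hA hμ hK, (MeasurableEmbedding.subtype_coe hA).lintegral_map]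

theorem sub_int (hA : MeasurableSet A) (hμ : ∀ᵐ z ∂μ, z ∈ A) {K : Set X} (hK : MeasurableSet K) (g : X → R3) :
    ∫ o : A in Subtype.val ⁻¹' K, g o.1 ∂μ.comap Subtype.val = ∫ z in K, g z ∂μ := by
  rw [← sub_map hA hμ hK, (MeasurableEmbedding.subtype_coe hA).integral_map]

theorem sub_intg (hA : MeasurableSet A) (hμ : ∀ᵐ z ∂μ, z ∈ A) {K : Set X} (hK : MeasurableSet K) {g : X → R3}
    (hg : IntegrableOn g K μ) : IntegrableOn (fun o : A => g o.1) (Subtype.val ⁻¹' K) (μ.comap Subtype.val) := by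
  unfold IntegrableOn at hg ⊢
  rw [← sub_map hA hμ hK, (MeasurableEmbedding.subtype_coe hA).integrable_map_iff] at hg
  exact hg

end sub

variable {f₀ : R3 → R3 → ℝ} {E₀ B₀ : R3 → R3}

/-- the carrier of the datum -/
def car (f₀ : R3 → R3 → ℝ) : Set P6 := {z : P6 | f₀ z.1 z.2 ≠ 0}

theorem frame (hcl : S_CL) (hd : IsAdmissibleDatum f₀ E₀ B₀) (T : ℝ) : ∃ C : ℝ, ∀ T' ≤ T, ∀ (s : Sol f₀ E₀ B₀ T'),
    ∀ t ∈ Ico 0 T', ∃ S : A.Sys (car f₀) C, S.T = t ∧ ∀ o, S.W t o = (s.L.Z t o.1).2 := by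
  obtain ⟨L, hL1, hLf, hLs, -, -⟩ := datum_bounds hd
  obtain ⟨D, hD⟩ := lag_lw hd T
  set e := Flux.energy0 f₀ E₀ B₀ with he
  obtain ⟨C, hC1, hC2, hC3, hC4, hC5⟩ : ∃ C : ℝ, L ≤ C ∧ T ≤ C ∧ D ≤ C ∧ e ≤ C ∧ 2 * e ≤ C :=
    ⟨max L (max T (max D (max e (2 * e)))), by simp, by simp, by simp, by simp, by simp⟩
  refine ⟨C, fun T' hT' s t ht => ?_⟩
  have hfl := sol_flo hd s
  obtain ⟨τ, hτ⟩ := exists_ret hfl
  have := finite_mu hfl
  have hc0 : Continuous fun z : P6 => f₀ z.1 z.2 := hd.2.1.continuous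
  have hU : MeasurableSet (car f₀) := (isOpen_ne_fun hc0 continuous_const).measurableSet
  have hμ : ∀ᵐ z ∂mu s.L.f, z ∈ car f₀ := by
    unfold mu
    rw [ae_withDensity_iff (by
      have := hfl.cf
      fun_prop)]
    refine Eventually.of_forall fun z hz h0 => hz ?_
    rw [sol_f0, h0, ENNReal.ofReal_zero]
  have hset : ∀ r x, {o : car f₀ | 0 ≤ τ r x o.1} = Subtype.val ⁻¹' cone r x := fun r x =>
    Set.ext fun o => hτ.nonneg_iff hfl r x o.1
  have hK := measurableSet_cone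
  have hKo : ∀ r x, MeasurableSet (Subtype.val ⁻¹' cone r x : Set (car f₀)) := fun r x => measurable_subtype_coe (hK r x)
  have hsub : ∀ r ∈ Icc 0 t, r ∈ Ico 0 T' := fun r hr => ⟨hr.1, hr.2.trans_lt ht.2⟩
  have hY : ∀ r x z, z ∈ cone r x → Yx s.L.Z (τ r x z) z = (s.L.Z (τ r x z) z).1 := fun r x z hz =>
    Yx_of_nonneg ((hτ.nonneg_iff hfl r x z).2 hz) z
  have hW : ∀ r x z, z ∈ cone r x → Wx s.L.Z (τ r x z) z = (s.L.Z (τ r x z) z).2 := fun r x z hz =>
    Wx_of_nonneg ((hτ.nonneg_iff hfl r x z).2 hz) z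
  have hlw : ∀ r x z, z ∈ cone r x → A.ET (x - Yx s.L.Z (τ r x z) z) (Wx s.L.Z (τ r x z) z) +
      A.ES (x - Yx s.L.Z (τ r x z) z) (Wx s.L.Z (τ r x z) z)
        (A.force (s.E (τ r x z, Yx s.L.Z (τ r x z) z)) (s.B (τ r x z, Yx s.L.Z (τ r x z) z)) (Wx s.L.Z (τ r x z) z)) =
      lw (lor s.E s.B) r x (s.L.Z (τ r x z) z) := fun r x z hz => by
    rw [hY r x z hz, hW r x z hz, lw, hτ.up_eq hfl hz]
    rfl
  refine ⟨{
    T := t
    μ := (mu s.L.f).comap Subtype.val
    Y := fun r o => Yx s.L.Z r o.1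
    W := fun r o => Wx s.L.Z r o.1
    E := fun r x => s.E (r, x)
    B := fun r x => s.B (r, x)
    τ := fun r x o => τ r x o.1
    one_le := hL1.trans hC1
    T_nonneg := ht.1
    T_le := ht.2.le.trans (hT'.trans hC2)
    fin := inferInstance
    mY := (continuous_Yx hfl).measurable.comp (measurable_fst.prodMk (measurable_subtype_coe.comp measurable_snd))
    mW := (continuous_Wx hfl).measurable.comp (measurable_fst.prodMk (measurable_subtype_coe.comp measurable_snd))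
    mτ := hτ.meas.comp (measurable_fst.prodMk (measurable_subtype_coe.comp measurable_snd))
    cE := s.hE.1.continuous
    cB := s.hB.1.continuous
    Y0 := fun o => ?_
    W0 := fun o => ?_
    bdd := ?_
    dY := fun o r _ => hasDerivAt_Yx hfl o.1 r
    dW := fun o r hr _ => ?_
    cW := fun o => ((continuous_Wx hfl).comp (continuous_id.prodMk continuous_const)).continuousOn
    Wneg := fun o r hr => by simp [Wx, max_eq_right hr]
    ret := fun r x o _ => hτ.ret r x o.1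
    vol := fun r hr x g hg => ?_
    coneP := fun r hr x => ?_
    coneF := fun r hr x => (lag_coneF hcl hd s (hsub r hr) x).trans (ENNReal.ofReal_le_ofReal hC4)
    enP := fun r hr => ?_
    enF := fun r hr => (lag_enF hcl hd s (hsub r hr)).trans (ENNReal.ofReal_le_ofReal hC5)
    lwInt := fun r hr x => ?_
    lwE := fun r hr x => ?_
    lwB := fun r hr x => ?_ }, rfl, fun o => Wx_of_nonneg ht.1 o.1⟩
  · rw [Yx_zero hfl]
    exact (norm_fst_le o.1).trans ((hLs o.1 o.2).trans hC1)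
  · rw [Wx_of_nonneg le_rfl, hfl.Z0]
    exact (norm_snd_le o.1).trans ((hLs o.1 o.2).trans hC1)
  · obtain ⟨R, -, hR⟩ := hfl.supp t
    refine ⟨R, fun r o hr => ?_⟩
    have h1 : |max r 0| ≤ t := by
      rw [abs_of_nonneg (le_max_right _ _)]; exact max_le hr ht.1
    by_contra h
    refine o.2 ?_
    rw [← sol_f0 s, ← hfl.trans (max r 0)]
    exact hR _ _ h1 ((not_le.1 h).trans_le (norm_snd_le _))
  · have h1 : (fun r => Wx s.L.Z r o.1) =ᶠ[𝓝 r] fun r => (s.L.Z r o.1).2 :=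
      (lt_mem_nhds hr).mono fun a ha => Wx_of_nonneg ha.le o.1
    refine HasDerivAt.congr_of_eventuallyEq ?_ h1
    rw [Yx_of_nonneg hr.le, Wx_of_nonneg hr.le]
    exact sol_dW s o.1 r
  · refine le_trans (le_of_eq ?_) ((lag_vol hd s hτ hLf hr.1 x hg).trans
      (mul_le_mul_left (ENNReal.ofReal_le_ofReal hC1) _))
    rw [hset, ← sub_lint hU hμ (hK r x)]
    refine setLIntegral_congr_fun (hKo r x) fun o ho => ?_
    simp only [hY r x o.1 ho, hW r x o.1 ho, bb]
  · refine le_trans (le_of_eq ?_) ((lag_coneP hcl hd s hτ (hsub r hr) x).trans (ENNReal.ofReal_le_ofReal hC4))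
    rw [hset, ← sub_lint hU hμ (hK r x)]
    refine setLIntegral_congr_fun (hKo r x) fun o ho => ?_
    simp only [hW r x o.1 ho]
  · refine le_trans (le_of_eq ?_) ((lag_enP hcl hd s (hsub r hr)).trans (ENNReal.ofReal_le_ofReal hC4))
    have := sub_lint hU hμ MeasurableSet.univ fun z => ENNReal.ofReal (A.en (s.L.Z r z).2)
    simp only [preimage_univ, Measure.restrict_univ] at this
    rw [← this]
    simp only [Wx_of_nonneg hr.1]
  · rw [hset]
    refine (sub_intg hU hμ (hK r x) (hD T' hT' s τ hτ r ⟨hr.1, (hsub r hr).2.le⟩ x).1).congr_fun (fun o ho => ?_) (hKo r x)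
    exact (hlw r x o.1 ho).symm
  · refine le_trans (le_of_eq ?_) ((hD T' hT' s τ hτ r ⟨hr.1, (hsub r hr).2.le⟩ x).2.1.trans hC3)
    rw [hset, ← sub_int hU hμ (hK r x), setIntegral_congr_fun (hKo r x) fun o ho => hlw r x o.1 ho]
  · refine le_trans (le_of_eq ?_) ((hD T' hT' s τ hτ r ⟨hr.1, (hsub r hr).2.le⟩ x).2.2.trans hC3)
    rw [hset, ← sub_int hU hμ (hK r x)]
    congr 3
    refine setIntegral_congr_fun (hKo r x) fun o ho => ?_
    simp only [hlw r x o.1 ho]
    rw [hY r x o.1 ho]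

theorem s_frame (hcl : S_CL) (h : A.S_APL) : S_AP := by
  intro f₀ E₀ B₀ hd T
  obtain ⟨C, hC⟩ := frame hcl hd T
  obtain ⟨P, hP⟩ := h C
  obtain ⟨L, -, -, hLs, -, -⟩ := datum_bounds hd
  refine ⟨max P L, fun T' hT' s t h0 ht z hz => ?_⟩
  have key : ∀ r ∈ Ico 0 T', ‖(s.L.Z r z).2‖ ≤ P := fun r hr => by
    obtain ⟨S, hS, hW⟩ := hC T' hT' s r hr
    rw [← hW ⟨z, hz⟩]
    exact hP _ S r _ hS.ge
  rcases h0.eq_or_lt with rfl | h0'
  · rw [s.L.Z0]
    exact (norm_snd_le z).trans ((hLs z hz).trans (le_max_right _ _))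
  · refine le_trans ?_ (le_max_left _ _)
    have hc : Continuous fun r : ℝ => ‖(s.L.Z r z).2‖ :=
      ((s.L.smoothZ.continuous.comp (continuous_id.prodMk continuous_const)).snd).norm
    have hcl' : t ∈ closure (Ioo 0 t) := by rw [closure_Ioo h0'.ne]; exact right_mem_Icc.2 h0
    exact closure_minimal (fun r hr => key r ⟨hr.1.le, hr.2.trans_le ht⟩) (isClosed_le hc continuous_const) hcl'

theorem s_ap_of (hC : S_CL) (h : A.S_APL) : S_AP := s_frame hC h

end Crest.Agent.R106.Rep
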