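import Crest.Agent.R106.Rep.Basic

/-! Row 106, frame block: continued paths and the retarded time. -/

set_option autoImplicit false

noncomputable section

namespace Crest.Agent.R106.Rep

open MeasureTheory Metric Set Filter Topology
open scoped ContDiff InnerProductSpace ENNReal
open Crest.AnalysisR.VecCalc3 Crest.AnalysisR.PDE.RVM Crest.Agent.R106.Wave

variable {f : ℝ × P6 → ℝ} {Z : ℝ → P6 → P6}

theorem Yx_of_nonneg {t : ℝ} (ht : 0 ≤ t) (z : P6) : Yx Z t z = (Z t z).1 := by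
  simp [Yx, max_eq_left ht, min_eq_right ht]

theorem Wx_of_nonneg {t : ℝ} (ht : 0 ≤ t) (z : P6) : Wx Z t z = (Z t z).2 := by
  simp [Wx, max_eq_left ht]

theorem Yx_zero (h : Flo f Z) (z : P6) : Yx Z 0 z = z.1 := by
  rw [Yx_of_nonneg le_rfl, h.Z0]

theorem taua_cont (h : Flo f Z) : Continuous fun p : ℝ × P6 => Z (max p.1 0) p.2 :=
  h.cZ.comp (f := fun p : ℝ × P6 => (max p.1 0, p.2)) (by fun_prop)

theorem taua_neg (h : Flo f Z) {t : ℝ} (ht : t ≤ 0) (z : P6) : Yx Z t z = z.1 + t • relVel z.2 := by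
  simp [Yx, max_eq_right ht, min_eq_left ht, h.Z0]

theorem continuous_Yx (h : Flo f Z) : Continuous fun p : ℝ × P6 => Yx Z p.1 p.2 := by
  unfold Yx
  exact (taua_cont h).fst.add ((continuous_fst.min continuous_const).smul
    (smooth_relVel.continuous.comp continuous_snd.snd))

theorem continuous_Wx (h : Flo f Z) : Continuous fun p : ℝ × P6 => Wx Z p.1 p.2 := by
  exact (taua_cont h).snd

/-- three cases; at `t = 0` glue the one-sided derivatives (`HasDerivWithinAt.union`) -/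
theorem hasDerivAt_Yx (h : Flo f Z) (z : P6) (t : ℝ) : HasDerivAt (fun s => Yx Z s z) (relVel (Wx Z t z)) t := by
  have hp : ∀ t, 0 ≤ t → HasDerivWithinAt (fun s => Yx Z s z) (relVel (Wx Z t z)) (Ici 0) t := fun t ht => by
    rw [Wx_of_nonneg ht]
    exact (h.dY z t).hasDerivWithinAt.congr (fun s hs => Yx_of_nonneg hs z) (Yx_of_nonneg ht z)
  have hn : ∀ t, t ≤ 0 → HasDerivWithinAt (fun s => Yx Z s z) (relVel (Wx Z t z)) (Iic 0) t := fun t ht => by
    have e : Wx Z t z = z.2 := by simp [Wx, max_eq_right ht, h.Z0]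
    have d : HasDerivAt (fun s : ℝ => z.1 + s • relVel z.2) (relVel z.2) t := by
      simpa using ((hasDerivAt_id t).smul_const (relVel z.2)).const_add z.1
    rw [e]
    exact d.hasDerivWithinAt.congr (fun s hs => taua_neg h hs z) (taua_neg h ht z)
  rcases lt_trichotomy t 0 with ht | rfl | ht
  · exact (hn t ht.le).hasDerivAt (Iic_mem_nhds ht)
  · have := (hn 0 le_rfl).union (hp 0 le_rfl)
    rwa [Iic_union_Ici, hasDerivWithinAt_univ] at this
  · exact (hp t ht.le).hasDerivAt (Ici_mem_nhds ht)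

/-- speed bound (mean value inequality) -/
theorem Yx_lip (h : Flo f Z) (z : P6) {a b q : ℝ} (hab : a ≤ b) (hq : ∀ t ∈ Icc a b, ‖relVel (Wx Z t z)‖ ≤ q) :
    ‖Yx Z b z - Yx Z a z‖ ≤ q * (b - a) := by
  exact norm_image_sub_le_of_norm_deriv_le_segment' (f := fun s => Yx Z s z) (f' := fun t => relVel (Wx Z t z))
    (fun t _ => (hasDerivAt_Yx h z t).hasDerivWithinAt) (fun t ht => hq t (Ico_subset_Icc_self ht)) b (right_mem_Icc.2 hab)

/-- `Yx_lip` with the maximum of the continuous function `‖relVel (Wx Z t z)‖ < 1` on `Icc a b` -/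
theorem phi_strictMono (h : Flo f Z) (x : R3) (z : P6) : StrictMono fun t => t + ‖x - Yx Z t z‖ := by
  intro a b hab
  have hc : Continuous fun t => ‖relVel (Wx Z t z)‖ :=
    (smooth_relVel.continuous.comp ((continuous_Wx h).comp (f := fun t : ℝ => (t, z)) (by fun_prop))).norm
  obtain ⟨t0, -, h0⟩ := isCompact_Icc.exists_isMaxOn (nonempty_Icc.2 hab.le) hc.continuousOn
  have h1 := Yx_lip h z hab.le (q := ‖relVel (Wx Z t0 z)‖) fun t ht => h0 ht
  have h2 := norm_relVel_lt (Wx Z t0 z)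
  have h3 : ‖x - Yx Z a z‖ ≤ ‖x - Yx Z b z‖ + ‖Yx Z b z - Yx Z a z‖ := norm_sub_le_norm_sub_add_norm_sub _ _ _
  have h4 : ‖relVel (Wx Z t0 z)‖ * (b - a) < 1 * (b - a) := mul_lt_mul_of_pos_right h2 (sub_pos.2 hab)
  show a + ‖x - Yx Z a z‖ < b + ‖x - Yx Z b z‖
  linarith

/-- the root exists by the intermediate value theorem (for `t ≤ 0` the function is at most `‖x - z.1‖ + (1 - ‖relVel z.2‖) t`, at `t = s` it is at
least `s`); `iff` from `phi_strictMono`; measurability by `measurable_of_Ici` and `iff` (closed sets) -/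
theorem exists_ret (h : Flo f Z) : ∃ τ, IsRet Z τ := by
  have key : ∀ (s : ℝ) (x : R3) (z : P6), ∃ t, t + ‖x - Yx Z t z‖ = s := by
    intro s x z
    have hc : Continuous fun t => t + ‖x - Yx Z t z‖ :=
      continuous_id.add (continuous_const.sub ((continuous_Yx h).comp (f := fun t : ℝ => (t, z)) (by fun_prop))).norm
    have hq := norm_relVel_lt z.2
    set t0 : ℝ := min 0 ((s - ‖x - z.1‖) / (1 - ‖relVel z.2‖)) with ht0
    have h0 : t0 ≤ 0 := min_le_left _ _
    have h1 : t0 * (1 - ‖relVel z.2‖) ≤ s - ‖x - z.1‖ := (le_div_iff₀ (sub_pos.2 hq)).1 (min_le_right _ _)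
    have h2 : ‖x - Yx Z t0 z‖ ≤ ‖x - z.1‖ + -t0 * ‖relVel z.2‖ := by
      rw [taua_neg h h0, ← sub_sub]
      refine (norm_sub_le _ _).trans ?_
      rw [norm_smul, Real.norm_eq_abs, abs_of_nonpos h0]
    refine intermediate_value_univ t0 s hc ⟨?_, ?_⟩
    · show t0 + ‖x - Yx Z t0 z‖ ≤ s
      linarith
    · show s ≤ s + ‖x - Yx Z s z‖
      linarith [norm_nonneg (x - Yx Z s z)]
  choose τ hτ using key
  have hiff : ∀ s x z t, t ≤ τ s x z ↔ t + ‖x - Yx Z t z‖ ≤ s := fun s x z t => by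
    rw [← (phi_strictMono h x z).le_iff_le, hτ]
  refine ⟨τ, measurable_of_Ici fun a => ?_, fun s x z => by linarith [hτ s x z], hiff⟩
  have e : (fun p : (ℝ × R3) × P6 => τ p.1.1 p.1.2 p.2) ⁻¹' Ici a = {p | a + ‖p.1.2 - Yx Z a p.2‖ ≤ p.1.1} := by
    ext p; exact hiff _ _ _ _
  rw [e]
  refine (isClosed_le ?_ (by fun_prop)).measurableSet
  exact continuous_const.add (continuous_fst.snd.sub
    ((continuous_Yx h).comp (f := fun p : (ℝ × R3) × P6 => (a, p.2)) (by fun_prop))).norm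

theorem IsRet.nonneg_iff (h : Flo f Z) {τ : ℝ → R3 → P6 → ℝ} (hτ : IsRet Z τ) (s : ℝ) (x : R3) (z : P6) :
    0 ≤ τ s x z ↔ z ∈ cone s x := by
  rw [hτ.iff, Yx_zero h, zero_add]; rfl

theorem IsRet.le {τ : ℝ → R3 → P6 → ℝ} (hτ : IsRet Z τ) (s : ℝ) (x : R3) (z : P6) : τ s x z ≤ s := by
  have := hτ.ret s x z; have := norm_nonneg (x - Yx Z (τ s x z) z); linarith

/-- on the cone the retarded point lies above `Z τ z` -/
theorem IsRet.up_eq (h : Flo f Z) {τ : ℝ → R3 → P6 → ℝ} (hτ : IsRet Z τ) {s : ℝ} {x : R3} {z : P6} (hz : z ∈ cone s x) :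
    up s x (Z (τ s x z) z) = (τ s x z, Z (τ s x z) z) := by
  have h0 := (hτ.nonneg_iff h s x z).2 hz
  have h1 := hτ.ret s x z
  rw [Yx_of_nonneg h0] at h1
  simp only [up, ← h1, sub_sub_cancel]

theorem taub_phi {τ : ℝ → R3 → P6 → ℝ} (hτ : IsRet Z τ) (s : ℝ) (x : R3) (z : P6) :
    τ s x z + ‖x - Yx Z (τ s x z) z‖ = s := by
  have := hτ.ret s x z; linarith

theorem taub_mono {τ : ℝ → R3 → P6 → ℝ} (hτ : IsRet Z τ) (x : R3) (z : P6) : Monotone fun s => τ s x z := by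
  intro a b hab
  exact (hτ.iff b x z _).2 (by rw [taub_phi hτ]; exact hab)

/-- Lipschitz bound of the positive part of the retarded time -/
theorem IsRet.lip (h : Flo f Z) {τ : ℝ → R3 → P6 → ℝ} (hτ : IsRet Z τ) (x : R3) (z : P6) {S q : ℝ} (hq1 : q < 1)
    (hq : ∀ t ∈ Icc 0 S, ‖relVel (Z t z).2‖ ≤ q) {a b : ℝ} (hab : a ≤ b) (hb : b ≤ S) :
    0 ≤ max (τ b x z) 0 - max (τ a x z) 0 ∧ max (τ b x z) 0 - max (τ a x z) 0 ≤ (b - a) / (1 - q) := by
  have hm : τ a x z ≤ τ b x z := taub_mono hτ x z hab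
  have hmax : max (τ a x z) 0 ≤ max (τ b x z) 0 := max_le_max hm le_rfl
  have hq' : 0 < 1 - q := by linarith
  refine ⟨by linarith, ?_⟩
  rcases le_total (τ b x z) 0 with h0 | h0
  · rw [max_eq_right h0, max_eq_right (hm.trans h0), sub_self]
    exact div_nonneg (by linarith) hq'.le
  · rw [max_eq_left h0] at hmax ⊢
    obtain ⟨α, hα⟩ : ∃ α, α = max (τ a x z) 0 := ⟨_, rfl⟩
    rw [← hα] at hmax ⊢
    have hα0 : 0 ≤ α := hα ▸ le_max_right _ _
    have hα1 : τ a x z ≤ α := hα ▸ le_max_left _ _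
    have h1 : a ≤ α + ‖x - Yx Z α z‖ := by
      have := (phi_strictMono h x z).monotone hα1
      rw [taub_phi hτ] at this
      exact this
    have h2 := taub_phi hτ b x z
    have hbS : τ b x z ≤ S := (hτ.le b x z).trans hb
    have h3 := Yx_lip h z (q := q) hmax fun t ht => by
      rw [Wx_of_nonneg (hα0.trans ht.1)]
      exact hq t ⟨hα0.trans ht.1, ht.2.trans hbS⟩
    have h4 : ‖x - Yx Z α z‖ ≤ ‖x - Yx Z (τ b x z) z‖ + ‖Yx Z (τ b x z) z - Yx Z α z‖ := norm_sub_le_norm_sub_add_norm_sub _ _ _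
    rw [le_div_iff₀ hq']
    nlinarith

/-- `dτ/ds = 1 / b` (`HasDerivAt.of_local_left_inverse`; `τ` is continuous in `s` as the inverse of a strictly monotone continuous
function, e.g. from `iff`) -/
theorem IsRet.hasDerivAt (h : Flo f Z) {τ : ℝ → R3 → P6 → ℝ} (hτ : IsRet Z τ) {s : ℝ} {x : R3} {z : P6}
    (h0 : 0 ≤ τ s x z) (hx : (Z (τ s x z) z).1 ≠ x) :
    HasDerivAt (fun r => τ r x z) (bb x (Z (τ s x z) z))⁻¹ s := by
  have hsurj : Function.Surjective fun r => τ r x z := fun t =>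
    ⟨t + ‖x - Yx Z t z‖, (phi_strictMono h x z).injective (taub_phi hτ _ x z)⟩
  have hc : Continuous fun r => τ r x z := (taub_mono hτ x z).continuous_of_surjective hsurj
  obtain ⟨t, ht⟩ : ∃ t, t = τ s x z := ⟨_, rfl⟩
  have hne : x - (Z t z).1 ≠ 0 := by rw [ht]; exact sub_ne_zero.2 (Ne.symm hx)
  have ht0 : 0 ≤ t := ht ▸ h0
  have hd : HasDerivAt (fun r => x - Yx Z r z) (-relVel (Z t z).2) t := by
    have := (hasDerivAt_Yx h z t).const_sub x
    rwa [Wx_of_nonneg ht0] at this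
  have hn : 0 < ‖x - (Z t z).1‖ := norm_pos_iff.2 hne
  have hsq := hd.norm_sq
  have hY : Yx Z t z = (Z t z).1 := Yx_of_nonneg ht0 z
  have hs := hsq.sqrt (by rw [hY]; positivity)
  simp only [Real.sqrt_sq (norm_nonneg _)] at hs
  have hphi : HasDerivAt (fun r => r + ‖x - Yx Z r z‖) (bb x (Z t z)) t := by
    refine ((hasDerivAt_id t).add hs).congr_deriv ?_
    rw [hY, bb, A.ang, A.dir, inner_neg_right, real_inner_smul_left]
    field_simp
    ring
  have hb : bb x (Z t z) ≠ 0 := (bb_pos _ _).ne'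
  rw [ht] at hphi hb
  exact HasDerivAt.of_local_left_inverse (g := fun r => τ r x z) hc.continuousAt hphi hb
    (Eventually.of_forall fun r => taub_phi hτ r x z)

end Crest.Agent.R106.Rep
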